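import Vale.Agent.P268.Hol

/-!
# P273, periods: the neck lemma (helper598)

`X Y = ε`, `z = (X + Y) / 2`, `√(z² - ε) = (X - Y) / 2`, `dz / √(z² - ε) = dX / X`.  For `h` holomorphic
near the disc `|z| ≤ r` : `h ((X + Y) / 2) = c0 + X q X + Y q Y` with `c0`, `q` holomorphic in all variables;
so `∫ h dz / √(z² - ε) = c0 log X + P X - P Y`.
-/

open Set Metric Filter Complex
open scoped Topology Real

namespace Vale.Agent.P273.H598

noncomputable section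

/-! ### the square root near `z` -/

/-- `√(z² - ε)`, the branch which is near `z` for small `ε` -/
def rz (ε z : ℂ) : ℂ := z * (1 - ε / z ^ 2) ^ ((2 : ℂ)⁻¹)

def uz (ε z : ℂ) : ℂ := (z + rz ε z) / 2
def vz (ε z : ℂ) : ℂ := (z - rz ε z) / 2

lemma uz_add_vz (ε z : ℂ) : uz ε z + vz ε z = z := by unfold uz vz; ring

lemma uz_sub_vz (ε z : ℂ) : uz ε z - vz ε z = rz ε z := by unfold uz vz; ring

lemma ne_zero_of_lt {ε z : ℂ} (h : ‖ε‖ < ‖z‖ ^ 2) : z ≠ 0 := by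
  rintro rfl
  simp at h
  exact absurd h (not_lt.2 (norm_nonneg _))

lemma norm_div_lt {ε z : ℂ} (h : ‖ε‖ < ‖z‖ ^ 2) : ‖ε / z ^ 2‖ < 1 := by
  have hz := norm_pos_iff.2 (ne_zero_of_lt h)
  rw [norm_div, norm_pow, div_lt_one (by positivity)]
  exact h

lemma re_pos_of_lt {ε z : ℂ} (h : ‖ε‖ < ‖z‖ ^ 2) : 0 < (1 - ε / z ^ 2).re := by
  have h1 := norm_div_lt h
  have h2 := (abs_re_le_norm (ε / z ^ 2))
  have h3 := abs_le.1 h2
  simp only [sub_re, one_re]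
  linarith [h3.2]

lemma slit_of_lt {ε z : ℂ} (h : ‖ε‖ < ‖z‖ ^ 2) : 1 - ε / z ^ 2 ∈ slitPlane :=
  Or.inl (re_pos_of_lt h)

lemma rz_sq {ε z : ℂ} (hz : z ≠ 0) : rz ε z ^ 2 = z ^ 2 - ε := by
  unfold rz
  rw [mul_pow]
  have h1 : ((1 - ε / z ^ 2) ^ ((2 : ℂ)⁻¹)) ^ 2 = 1 - ε / z ^ 2 := by
    simp
  rw [h1]
  field_simp

lemma uz_mul_vz {ε z : ℂ} (hz : z ≠ 0) : uz ε z * vz ε z = ε / 4 := by
  have h := rz_sq (ε := ε) hz
  unfold uz vz
  linear_combination (-1 / 4 : ℂ) * h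

lemma rz_ne_zero {ε z : ℂ} (h : ‖ε‖ < ‖z‖ ^ 2) : rz ε z ≠ 0 := by
  intro h0
  have h1 := rz_sq (ε := ε) (ne_zero_of_lt h)
  rw [h0] at h1
  have h2 : z ^ 2 = ε := by linear_combination -h1
  rw [← h2, norm_pow] at h
  exact lt_irrefl _ h

lemma sqrt_re_pos {x : ℂ} (hx : x ∈ slitPlane) : 0 < (x ^ ((2 : ℂ)⁻¹)).re := by
  have hx0 := slitPlane_ne_zero hx
  rw [cpow_def_of_ne_zero hx0, exp_re]
  have h1 : (log x * (2 : ℂ)⁻¹).im = x.arg / 2 := by
    rw [mul_im]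
    have e1 : ((2 : ℂ)⁻¹).re = 1 / 2 := by norm_num
    have e2 : ((2 : ℂ)⁻¹).im = 0 := by norm_num
    rw [e1, e2, log_im]
    ring
  rw [h1]
  have h2 := neg_pi_lt_arg x
  have h3 : x.arg < π := lt_of_le_of_ne (arg_le_pi x) (mem_slitPlane_iff_arg.1 hx).1
  refine mul_pos (Real.exp_pos _) (Real.cos_pos_of_mem_Ioo ⟨?_, ?_⟩)
  · linarith
  · linarith

lemma norm_uz {ε z : ℂ} (h : ‖ε‖ < ‖z‖ ^ 2) : ‖z‖ / 2 < ‖uz ε z‖ := by
  have hz := norm_pos_iff.2 (ne_zero_of_lt h)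
  have h1 : uz ε z = z * ((1 + (1 - ε / z ^ 2) ^ ((2 : ℂ)⁻¹)) / 2) := by
    unfold uz rz
    ring
  have h2 := sqrt_re_pos (slit_of_lt h)
  have h3 : 1 < ‖1 + (1 - ε / z ^ 2) ^ ((2 : ℂ)⁻¹)‖ := by
    refine lt_of_lt_of_le ?_ (re_le_norm _)
    simp only [add_re, one_re]
    linarith
  rw [h1, norm_mul, norm_div]
  have e : ‖(2 : ℂ)‖ = 2 := by simp
  rw [e]
  nlinarith

/-- the neck coordinate `X = z + √(z² - ε)` -/
def Xz (ε z : ℂ) : ℂ := z + rz ε z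

lemma norm_Xz {ε z : ℂ} (h : ‖ε‖ < ‖z‖ ^ 2) : ‖z‖ < ‖Xz ε z‖ := by
  have h1 := norm_uz h
  have h2 : Xz ε z = 2 * uz ε z := by unfold Xz uz; ring
  rw [h2, norm_mul]
  have e : ‖(2 : ℂ)‖ = 2 := by simp
  rw [e]
  linarith

lemma Xz_mul {ε z : ℂ} (hz : z ≠ 0) : Xz ε z * (z - rz ε z) = ε := by
  have h := rz_sq (ε := ε) hz
  unfold Xz
  linear_combination (-1 : ℂ) * h

lemma Xz_ne_zero {ε z : ℂ} (h : ‖ε‖ < ‖z‖ ^ 2) : Xz ε z ≠ 0 := by
  have := norm_Xz h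
  intro hc
  rw [hc, norm_zero] at this
  exact absurd this (not_lt.2 (norm_nonneg _))

/-- the kernel identity -/
lemma kernel_eq {ε z X Y : ℂ} (h : ‖ε‖ < ‖z‖ ^ 2) (hXY : X * Y = ε)
    (hX : Xz ε z ≠ X) (hY : Xz ε z ≠ Y) :
    (z - (X + Y) / 2)⁻¹ = (rz ε z)⁻¹ + X * ((rz ε z)⁻¹ * (Xz ε z - X)⁻¹) +
      Y * ((rz ε z)⁻¹ * (Xz ε z - Y)⁻¹) := by
  have hz := ne_zero_of_lt h
  have h0 := rz_ne_zero h
  have hU := Xz_ne_zero h
  have h1 := Xz_mul (ε := ε) hz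
  set R := rz ε z with hR
  have h2 : Xz ε z = z + R := rfl
  rw [h2] at hX hY hU h1 ⊢
  have h5 : (z + R - X) * (z + R - Y) = 2 * (z + R) * (z - (X + Y) / 2) := by
    linear_combination hXY - h1
  have hX' : z + R - X ≠ 0 := sub_ne_zero.2 hX
  have hY' : z + R - Y ≠ 0 := sub_ne_zero.2 hY
  have h6 : z - (X + Y) / 2 ≠ 0 := by
    intro hc
    rw [hc, mul_zero] at h5
    rcases mul_eq_zero.1 h5 with h | h
    · exact hX' h
    · exact hY' h
  have h7 : (z - (X + Y) / 2)⁻¹ = 2 * (z + R) / ((z + R - X) * (z + R - Y)) := by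
    rw [h5]; field_simp
  rw [h7]
  field_simp
  linear_combination (hXY - h1)

/-! ### the splitting of a holomorphic function -/

section split

variable {F : Type*} [NormedAddCommGroup F] [NormedSpace ℂ F]

/-- the constant term (the vanishing period divided by `2 π i`) -/
def c0 (h : ℂ → F) (r : ℝ) (ε : ℂ) : F :=
  (2 * π * I : ℂ)⁻¹ • ∮ z in C(0, r), (rz ε z)⁻¹ • h z

def q0 (h : ℂ → F) (r : ℝ) (X ε : ℂ) : F :=
  (2 * π * I : ℂ)⁻¹ • ∮ z in C(0, r), ((rz ε z)⁻¹ * (Xz ε z - X)⁻¹) • h z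

def P0 (h : ℂ → F) (r : ℝ) (X ε : ℂ) : F :=
  (2 * π * I : ℂ)⁻¹ • ∮ z in C(0, r), ((rz ε z)⁻¹ * (-log (1 - X / Xz ε z))) • h z

lemma differentiableAt_rz {ε z : ℂ} (h : ‖ε‖ < ‖z‖ ^ 2) :
    DifferentiableAt ℂ (fun p : ℂ × ℂ => rz p.1 p.2) (ε, z) := by
  have hz : z ≠ 0 := ne_zero_of_lt h
  have h1 : DifferentiableAt ℂ (fun p : ℂ × ℂ => 1 - p.1 / p.2 ^ 2) (ε, z) := by
    have h2 : (fun p : ℂ × ℂ => p.2) (ε, z) ≠ 0 := hz
    have h3 : DifferentiableAt ℂ (fun p : ℂ × ℂ => (p.2 ^ 2)⁻¹) (ε, z) :=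
      (differentiableAt_snd.pow 2).inv (pow_ne_zero 2 h2)
    exact (differentiableAt_const _).sub (differentiableAt_fst.mul h3)
  exact differentiableAt_snd.mul (h1.cpow_const (slit_of_lt h))

lemma differentiableAt_Xz {ε z : ℂ} (h : ‖ε‖ < ‖z‖ ^ 2) :
    DifferentiableAt ℂ (fun p : ℂ × ℂ => Xz p.1 p.2) (ε, z) :=
  differentiableAt_snd.add (differentiableAt_rz h)

lemma continuousOn_rz_inv {ε : ℂ} {r : ℝ} (h : ‖ε‖ < r ^ 2) :
    ContinuousOn (fun z => (rz ε z)⁻¹) (sphere 0 r) := by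
  intro z hz
  have hz' : ‖z‖ = r := mem_sphere_zero_iff_norm.1 hz
  have h' : ‖ε‖ < ‖z‖ ^ 2 := by rw [hz']; exact h
  have h1 : DifferentiableAt ℂ (fun z => rz ε z) z :=
    (differentiableAt_rz h').comp z ((differentiableAt_const ε).prodMk differentiableAt_id)
  exact (h1.continuousAt.inv₀ (rz_ne_zero h')).continuousWithinAt

lemma continuousOn_Xz {ε : ℂ} {r : ℝ} (h : ‖ε‖ < r ^ 2) :
    ContinuousOn (fun z => Xz ε z) (sphere 0 r) := by
  intro z hz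
  have hz' : ‖z‖ = r := mem_sphere_zero_iff_norm.1 hz
  have h' : ‖ε‖ < ‖z‖ ^ 2 := by rw [hz']; exact h
  have h1 : DifferentiableAt ℂ (fun z => Xz ε z) z :=
    (differentiableAt_Xz h').comp z ((differentiableAt_const ε).prodMk differentiableAt_id)
  exact h1.continuousAt.continuousWithinAt

lemma Xz_ne {ε z X : ℂ} (h : ‖ε‖ < ‖z‖ ^ 2) (hX : ‖X‖ < ‖z‖) : Xz ε z ≠ X := by
  intro hc
  have := norm_Xz h
  rw [hc] at this
  linarith

lemma slit_X {ε z X : ℂ} (h : ‖ε‖ < ‖z‖ ^ 2) (hX : ‖X‖ < ‖z‖) : 1 - X / Xz ε z ∈ slitPlane := by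
  left
  have h1 := norm_Xz h
  have h0 : 0 < ‖Xz ε z‖ := lt_of_le_of_lt (norm_nonneg _) h1
  have h2 : ‖X / Xz ε z‖ < 1 := by
    rw [norm_div, div_lt_one h0]; linarith
  have h3 := abs_le.1 (abs_re_le_norm (X / Xz ε z))
  simp only [sub_re, one_re]
  linarith [h3.2]

theorem split [CompleteSpace F] {h : ℂ → F} {r : ℝ} (hh : DiffContOnCl ℂ h (ball 0 r))
    {X Y ε : ℂ} (hX : ‖X‖ < r) (hY : ‖Y‖ < r) (hXY : X * Y = ε) :
    h ((X + Y) / 2) = c0 h r ε + X • q0 h r X ε + Y • q0 h r Y ε := by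
  have hr : 0 < r := lt_of_le_of_lt (norm_nonneg _) hX
  have hε : ‖ε‖ < r ^ 2 := by
    rw [← hXY, norm_mul]
    nlinarith [norm_nonneg X, norm_nonneg Y]
  have hm : (X + Y) / 2 ∈ ball (0 : ℂ) r := by
    rw [mem_ball_zero_iff, norm_div]
    have e : ‖(2 : ℂ)‖ = 2 := by simp
    rw [e]
    have := norm_add_le X Y
    linarith
  have hcl : closure (ball (0 : ℂ) r) = closedBall 0 r := closure_ball _ hr.ne'
  have hc : ContinuousOn h (sphere 0 r) := by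
    have := hh.continuousOn
    rw [hcl] at this
    exact this.mono sphere_subset_closedBall
  have h1 : ContinuousOn (fun z => (rz ε z)⁻¹) (sphere 0 r) := continuousOn_rz_inv hε
  have h2 : ∀ W : ℂ, ‖W‖ < r → ContinuousOn (fun z => (rz ε z)⁻¹ * (Xz ε z - W)⁻¹) (sphere 0 r) := by
    intro W hW
    refine h1.mul (ContinuousOn.inv₀ ((continuousOn_Xz hε).sub continuousOn_const) ?_)
    intro z hz
    have hz' : ‖z‖ = r := mem_sphere_zero_iff_norm.1 hz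
    have h' : ‖ε‖ < ‖z‖ ^ 2 := by rw [hz']; exact hε
    exact sub_ne_zero.2 (Xz_ne h' (by rw [hz']; exact hW))
  have i1 : CircleIntegrable (fun z => (rz ε z)⁻¹ • h z) 0 r := (h1.smul hc).circleIntegrable hr.le
  have i2 : CircleIntegrable (fun z => X • (((rz ε z)⁻¹ * (Xz ε z - X)⁻¹) • h z)) 0 r :=
    (continuousOn_const.smul ((h2 X hX).smul hc)).circleIntegrable hr.le
  have i3 : CircleIntegrable (fun z => Y • (((rz ε z)⁻¹ * (Xz ε z - Y)⁻¹) • h z)) 0 r :=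
    (continuousOn_const.smul ((h2 Y hY).smul hc)).circleIntegrable hr.le
  have key := hh.two_pi_i_inv_smul_circleIntegral_sub_inv_smul hm
  rw [← key]
  have e1 : (∮ z in C(0, r), (z - (X + Y) / 2)⁻¹ • h z) =
      ∮ z in C(0, r), ((rz ε z)⁻¹ • h z + X • (((rz ε z)⁻¹ * (Xz ε z - X)⁻¹) • h z)) +
        Y • (((rz ε z)⁻¹ * (Xz ε z - Y)⁻¹) • h z) := by
    refine circleIntegral.integral_congr hr.le fun z hz => ?_
    have hz' : ‖z‖ = r := mem_sphere_zero_iff_norm.1 hz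
    have h' : ‖ε‖ < ‖z‖ ^ 2 := by rw [hz']; exact hε
    have hk := kernel_eq h' hXY (Xz_ne h' (by rw [hz']; exact hX)) (Xz_ne h' (by rw [hz']; exact hY))
    simp only [hk, add_smul, smul_smul]
  have e2 : (∮ z in C(0, r), ((rz ε z)⁻¹ • h z + X • (((rz ε z)⁻¹ * (Xz ε z - X)⁻¹) • h z)) +
        Y • (((rz ε z)⁻¹ * (Xz ε z - Y)⁻¹) • h z)) =
      ((∮ z in C(0, r), (rz ε z)⁻¹ • h z) + X • ∮ z in C(0, r), ((rz ε z)⁻¹ * (Xz ε z - X)⁻¹) • h z) +
        Y • ∮ z in C(0, r), ((rz ε z)⁻¹ * (Xz ε z - Y)⁻¹) • h z := by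
    have i12 : CircleIntegrable (fun z => (rz ε z)⁻¹ • h z +
        X • (((rz ε z)⁻¹ * (Xz ε z - X)⁻¹) • h z)) 0 r := i1.add i2
    rw [circleIntegral.integral_add i12 i3, circleIntegral.integral_add i1 i2,
      circleIntegral.integral_smul, circleIntegral.integral_smul]
  rw [e1, e2]
  unfold c0 q0
  rw [smul_add, smul_add, smul_comm _ X, smul_comm _ Y]

/-! ### derivative under the circle integral -/

lemma hasDerivAt_circle {G G' : ℂ → ℂ → F} {r C : ℝ} (hr : 0 ≤ r) {X₀ : ℂ} {s : Set ℂ}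
    (hs : s ∈ 𝓝 X₀) (hG : ∀ X ∈ s, ContinuousOn (G X) (sphere 0 r))
    (hG' : ContinuousOn (G' X₀) (sphere 0 r)) (hC : ∀ X ∈ s, ∀ z ∈ sphere (0 : ℂ) r, ‖G' X z‖ ≤ C)
    (hd : ∀ X ∈ s, ∀ z ∈ sphere (0 : ℂ) r, HasDerivAt (fun X => G X z) (G' X z) X) :
    HasDerivAt (fun X => ∮ z in C(0, r), G X z) (∮ z in C(0, r), G' X₀ z) X₀ := by
  have hcirc : ∀ θ : ℝ, circleMap 0 r θ ∈ sphere (0 : ℂ) r := fun θ => circleMap_mem_sphere 0 hr θ
  have hcd : Continuous (deriv (circleMap 0 r)) := by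
    have : deriv (circleMap 0 r) = fun θ => circleMap 0 r θ * Complex.I := by
      ext θ; exact deriv_circleMap 0 r θ
    rw [this]
    exact (continuous_circleMap 0 r).mul continuous_const
  simp only [circleIntegral]
  refine (intervalIntegral.hasDerivAt_integral_of_dominated_loc_of_deriv_le
    (F := fun (X : ℂ) (θ : ℝ) => deriv (circleMap 0 r) θ • G X (circleMap 0 r θ))
    (F' := fun (X : ℂ) (θ : ℝ) => deriv (circleMap 0 r) θ • G' X (circleMap 0 r θ))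
    (bound := fun _ => |r| * C) (s := s) hs ?_ ?_ ?_ ?_ ?_ ?_).2
  · filter_upwards [hs] with X hX
    apply Continuous.aestronglyMeasurable
    exact hcd.smul ((hG X hX).comp_continuous (continuous_circleMap 0 r) hcirc)
  · apply Continuous.intervalIntegrable
    exact hcd.smul ((hG X₀ (mem_of_mem_nhds hs)).comp_continuous (continuous_circleMap 0 r) hcirc)
  · apply Continuous.aestronglyMeasurable
    exact hcd.smul (hG'.comp_continuous (continuous_circleMap 0 r) hcirc)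
  · refine Eventually.of_forall fun θ _ X hX => ?_
    rw [norm_smul]
    have : ‖deriv (circleMap 0 r) θ‖ = |r| := by simp [deriv_circleMap]
    rw [this]
    exact mul_le_mul_of_nonneg_left (hC X hX _ (hcirc θ)) (abs_nonneg r)
  · exact intervalIntegrable_const
  · refine Eventually.of_forall fun θ _ X hX => ?_
    exact (hd X hX _ (hcirc θ)).const_smul _

/-- `P0` is a primitive of `q0` -/
theorem hasDerivAt_P0 {h : ℂ → F} {r : ℝ} (hh : ContinuousOn h (sphere 0 r))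
    {X ε : ℂ} (hX : ‖X‖ < r) (hε : ‖ε‖ < r ^ 2) :
    HasDerivAt (fun X => P0 h r X ε) (q0 h r X ε) X := by
  have hr : 0 < r := lt_of_le_of_lt (norm_nonneg _) hX
  obtain ⟨ρ, hρ1, hρ2⟩ := exists_between hX
  have hsp : ∀ z ∈ sphere (0 : ℂ) r, ‖z‖ = r ∧ ‖ε‖ < ‖z‖ ^ 2 := by
    intro z hz
    have hz' : ‖z‖ = r := mem_sphere_zero_iff_norm.1 hz
    exact ⟨hz', by rw [hz']; exact hε⟩
  have h1 : ContinuousOn (fun z => (rz ε z)⁻¹) (sphere 0 r) := continuousOn_rz_inv hε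
  obtain ⟨C, hC⟩ := (isCompact_sphere (0 : ℂ) r).exists_bound_of_continuousOn (h1.smul hh)
  have hC0 : 0 ≤ C := by
    have hmem : (r : ℂ) ∈ sphere (0 : ℂ) r := by
      rw [mem_sphere_zero_iff_norm]; simp [abs_of_pos hr]
    exact (norm_nonneg _).trans (hC _ hmem)
  refine (hasDerivAt_circle (G := fun X z => ((rz ε z)⁻¹ * (-log (1 - X / Xz ε z))) • h z)
    (G' := fun X z => ((rz ε z)⁻¹ * (Xz ε z - X)⁻¹) • h z)
    (C := (r - ρ)⁻¹ * C) (s := ball 0 ρ) hr.le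
    (isOpen_ball.mem_nhds (mem_ball_zero_iff.2 hρ1)) ?_ ?_ ?_ ?_).const_smul
      ((2 * π * I : ℂ)⁻¹)
  · intro W hW
    rw [mem_ball_zero_iff] at hW
    refine (h1.mul ?_).smul hh
    refine ContinuousOn.neg (ContinuousOn.clog (continuousOn_const.sub
      (continuousOn_const.div (continuousOn_Xz hε) ?_)) ?_)
    · intro z hz
      exact Xz_ne_zero (hsp z hz).2
    · intro z hz
      exact slit_X (hsp z hz).2 (by rw [(hsp z hz).1]; linarith)
  · refine (h1.mul ?_).smul hh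
    refine ContinuousOn.inv₀ ((continuousOn_Xz hε).sub continuousOn_const) ?_
    intro z hz
    exact sub_ne_zero.2 (Xz_ne (hsp z hz).2 (by rw [(hsp z hz).1]; exact hX))
  · intro W hW z hz
    rw [mem_ball_zero_iff] at hW
    have h3 : r - ρ ≤ ‖Xz ε z - W‖ := by
      have h4 := norm_Xz (hsp z hz).2
      rw [(hsp z hz).1] at h4
      have h5 := norm_sub_norm_le (Xz ε z) W
      linarith
    have h6 := hC z hz
    have e : ((rz ε z)⁻¹ * (Xz ε z - W)⁻¹) • h z = (Xz ε z - W)⁻¹ • ((rz ε z)⁻¹ • h z) := by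
      rw [smul_smul, mul_comm]
    rw [e, norm_smul, norm_inv]
    exact mul_le_mul (inv_anti₀ (by linarith) h3) h6 (norm_nonneg _) (by
      rw [inv_nonneg]; linarith)
  · intro W hW z hz
    rw [mem_ball_zero_iff] at hW
    have hx : Xz ε z ≠ 0 := Xz_ne_zero (hsp z hz).2
    have hne : Xz ε z - W ≠ 0 := sub_ne_zero.2 (Xz_ne (hsp z hz).2 (by rw [(hsp z hz).1]; linarith))
    have hs := slit_X (hsp z hz).2 (show ‖W‖ < ‖z‖ by rw [(hsp z hz).1]; linarith)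
    have h4 : HasDerivAt (fun W : ℂ => 1 - W / Xz ε z) (-(1 / Xz ε z)) W := by
      have := ((hasDerivAt_id W).div_const (Xz ε z)).const_sub 1
      exact this
    have h5 := (h4.clog hs).neg
    have h6 := (h5.const_mul ((rz ε z)⁻¹)).smul_const (h z)
    have e : (rz ε z)⁻¹ * -(-(1 / Xz ε z) / (1 - W / Xz ε z)) =
        (rz ε z)⁻¹ * (Xz ε z - W)⁻¹ := by
      have e1 : 1 - W / Xz ε z = (Xz ε z - W) / Xz ε z := by field_simp
      rw [e1]
      field_simp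
    rw [e] at h6
    exact h6

lemma P0_zero (h : ℂ → F) (r : ℝ) (ε : ℂ) : P0 h r 0 ε = 0 := by
  unfold P0
  have e : (fun z => ((rz ε z)⁻¹ * (-log (1 - 0 / Xz ε z))) • h z) = fun _ => 0 := by
    funext z
    simp
  rw [e]
  simp [circleIntegral]

/-- the primitive in the neck -/
theorem hasDerivAt_neck [CompleteSpace F] {h : ℂ → F} {r : ℝ} (hh : DiffContOnCl ℂ h (ball 0 r))
    {X ε : ℂ} (hX0 : X ≠ 0) (hX : ‖X‖ < r) (hY : ‖ε / X‖ < r) :
    HasDerivAt (fun X => P0 h r X ε - P0 h r (ε / X) ε)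
      (X⁻¹ • (h ((X + ε / X) / 2) - c0 h r ε)) X := by
  have hr : 0 < r := lt_of_le_of_lt (norm_nonneg _) hX
  have hXY : X * (ε / X) = ε := by field_simp
  have hε : ‖ε‖ < r ^ 2 := by
    rw [← hXY, norm_mul]
    nlinarith [norm_nonneg X, norm_nonneg (ε / X)]
  have hcl : closure (ball (0 : ℂ) r) = closedBall 0 r := closure_ball _ hr.ne'
  have hc : ContinuousOn h (sphere 0 r) := by
    have := hh.continuousOn
    rw [hcl] at this
    exact this.mono sphere_subset_closedBall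
  have h1 := hasDerivAt_P0 hc hX hε
  have h2 := hasDerivAt_P0 hc hY hε
  have h3 : HasDerivAt (fun X : ℂ => ε / X) (-(ε / X ^ 2)) X := by
    have := (hasDerivAt_inv hX0).const_mul ε
    have e : ε * -(X ^ 2)⁻¹ = -(ε / X ^ 2) := by ring
    rw [e] at this
    exact this
  have h4 := h2.scomp X h3
  have h5 := h1.sub h4
  have e : q0 h r X ε - -(ε / X ^ 2) • q0 h r (ε / X) ε =
      X⁻¹ • (h ((X + ε / X) / 2) - c0 h r ε) := by
    rw [split hh hX hY hXY, add_assoc, add_sub_cancel_left, smul_add, smul_smul, smul_smul,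
      inv_mul_cancel₀ hX0, one_smul]
    have e2 : X⁻¹ * (ε / X) = ε / X ^ 2 := by field_simp
    rw [e2, neg_smul, sub_neg_eq_add]
  rw [e] at h5
  exact h5

end split

end

end Vale.Agent.P273.H598
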