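import Vale.Agent.P273.H598.Neck

/-!
# P273, periods: the neck lemma with parameters (helper598)

`c0`, `q0`, `P0` of `z ↦ H (l, z)` are holomorphic in all variables together.
-/

open Set Metric Filter Complex
open scoped Topology Real

namespace Vale.Agent.P273.H598

noncomputable section

variable {L F : Type*} [NormedAddCommGroup L] [NormedSpace ℂ L] [FiniteDimensional ℂ L]
  [NormedAddCommGroup F] [NormedSpace ℂ F] [CompleteSpace F]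

/-- circle integrals with a kernel in `(X, ε, z)` -/
theorem differentiableOn_kernel {K : ℂ × ℂ × ℂ → ℂ}
    (hK : ∀ X ε z : ℂ, ‖X‖ < ‖z‖ → ‖ε‖ < ‖z‖ ^ 2 → DifferentiableAt ℂ K (X, ε, z))
    {H : L × ℂ → F} {V : Set L} {r r₂ : ℝ} (hV : IsOpen V) (hr : r < r₂)
    (hH : DifferentiableOn ℂ H (V ×ˢ ball 0 r₂)) :
    DifferentiableOn ℂ (fun p : ℂ × ℂ × L =>
      (2 * π * I : ℂ)⁻¹ • ∮ z in C(0, r), K (p.1, p.2.1, z) • H (p.2.2, z))
      (ball 0 r ×ˢ ball 0 (r ^ 2) ×ˢ V) := by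
  rintro ⟨X₀, ε₀, l₀⟩ ⟨hX₀, hε₀, hl₀⟩
  rw [mem_ball_zero_iff] at hX₀
  have hε₀' : ‖ε₀‖ < r ^ 2 := mem_ball_zero_iff.1 hε₀
  have hr0 : 0 < r := lt_of_le_of_lt (norm_nonneg _) hX₀
  -- a slightly smaller radius
  obtain ⟨r₁, h1a, h1b⟩ : ∃ r₁, max ‖X₀‖ (Real.sqrt ‖ε₀‖) < r₁ ∧ r₁ < r := by
    refine exists_between (max_lt hX₀ ?_)
    rw [← Real.sqrt_sq hr0.le]
    exact Real.sqrt_lt_sqrt (norm_nonneg _) hε₀'
  have h1c : ‖X₀‖ < r₁ := lt_of_le_of_lt (le_max_left _ _) h1a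
  have h1d : Real.sqrt ‖ε₀‖ < r₁ := lt_of_le_of_lt (le_max_right _ _) h1a
  have hr1 : 0 < r₁ := lt_of_le_of_lt (norm_nonneg _) h1c
  have h1e : ‖ε₀‖ < r₁ ^ 2 := by
    have := Real.lt_sq_of_sqrt_lt h1d
    exact this
  set U : Set (ℂ × ℂ × L) := ball 0 r₁ ×ˢ ball 0 (r₁ ^ 2) ×ˢ V with hU
  have hUo : IsOpen U := isOpen_ball.prod (isOpen_ball.prod hV)
  set W : Set ℂ := {z | r₁ < ‖z‖} ∩ ball 0 r₂ with hW
  have hWo : IsOpen W := (isOpen_lt continuous_const continuous_norm).inter isOpen_ball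
  have hsW : sphere (0 : ℂ) r ⊆ W := by
    intro z hz
    have hz' : ‖z‖ = r := mem_sphere_zero_iff_norm.1 hz
    refine ⟨?_, ?_⟩
    · show r₁ < ‖z‖
      rw [hz']; exact h1b
    · rw [mem_ball_zero_iff, hz']; exact hr
  have hG : DifferentiableOn ℂ (fun p : (ℂ × ℂ × L) × ℂ =>
      K (p.1.1, p.1.2.1, p.2) • H (p.1.2.2, p.2)) (U ×ˢ W) := by
    rintro ⟨⟨X, ε, l⟩, z⟩ ⟨⟨hX, hε, hl⟩, hz1, hz2⟩
    have hX' : ‖X‖ < r₁ := mem_ball_zero_iff.1 hX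
    have hε' : ‖ε‖ < r₁ ^ 2 := mem_ball_zero_iff.1 hε
    have hz1' : r₁ < ‖z‖ := hz1
    have k1 : ‖X‖ < ‖z‖ := hX'.trans hz1'
    have k2 : ‖ε‖ < ‖z‖ ^ 2 := hε'.trans (by nlinarith)
    have d1 : DifferentiableAt ℂ (fun p : (ℂ × ℂ × L) × ℂ => K (p.1.1, p.1.2.1, p.2))
        ((X, ε, l), z) := by
      have := hK X ε z k1 k2
      have h2 : DifferentiableAt ℂ (fun p : (ℂ × ℂ × L) × ℂ => (p.1.1, p.1.2.1, p.2))
          ((X, ε, l), z) := by fun_prop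
      exact DifferentiableAt.comp (f := fun p : (ℂ × ℂ × L) × ℂ => (p.1.1, p.1.2.1, p.2))
        ((X, ε, l), z) this h2
    have d2 : DifferentiableAt ℂ (fun p : (ℂ × ℂ × L) × ℂ => H (p.1.2.2, p.2)) ((X, ε, l), z) := by
      have h1 : DifferentiableAt ℂ H (l, z) :=
        hH.differentiableAt ((hV.prod isOpen_ball).mem_nhds ⟨hl, hz2⟩)
      have h2 : DifferentiableAt ℂ (fun p : (ℂ × ℂ × L) × ℂ => (p.1.2.2, p.2))
          ((X, ε, l), z) := by fun_prop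
      exact DifferentiableAt.comp (f := fun p : (ℂ × ℂ × L) × ℂ => (p.1.2.2, p.2))
        ((X, ε, l), z) h1 h2
    exact (d1.smul d2).differentiableWithinAt
  have key := Vale.Agent.P268.differentiableOn_circleIntegral hr0.le hUo hWo hsW hG
  have hmem : ((X₀, ε₀, l₀) : ℂ × ℂ × L) ∈ U :=
    ⟨mem_ball_zero_iff.2 h1c, mem_ball_zero_iff.2 h1e, hl₀⟩
  exact ((key.differentiableAt (hUo.mem_nhds hmem)).const_smul _).differentiableWithinAt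

section main

variable {H : L × ℂ → F} {V : Set L} {r r₂ : ℝ}

/-- `P0` is holomorphic in all variables -/
theorem differentiableOn_P0 (hV : IsOpen V) (hr : r < r₂)
    (hH : DifferentiableOn ℂ H (V ×ˢ ball 0 r₂)) :
    DifferentiableOn ℂ (fun p : ℂ × ℂ × L => P0 (fun z => H (p.2.2, z)) r p.1 p.2.1)
      (ball 0 r ×ˢ ball 0 (r ^ 2) ×ˢ V) := by
  refine differentiableOn_kernel
    (K := fun p => (rz p.2.1 p.2.2)⁻¹ * (-log (1 - p.1 / Xz p.2.1 p.2.2))) ?_ hV hr hH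
  intro X ε z hX hε
  have h2 : DifferentiableAt ℂ (fun p : ℂ × ℂ × ℂ => (p.2.1, p.2.2)) (X, ε, z) := by fun_prop
  have h3 : DifferentiableAt ℂ (fun p : ℂ × ℂ × ℂ => rz p.2.1 p.2.2) (X, ε, z) :=
    DifferentiableAt.comp (f := fun p : ℂ × ℂ × ℂ => (p.2.1, p.2.2)) (X, ε, z)
      (differentiableAt_rz hε) h2
  have h4 : DifferentiableAt ℂ (fun p : ℂ × ℂ × ℂ => Xz p.2.1 p.2.2) (X, ε, z) :=
    DifferentiableAt.comp (f := fun p : ℂ × ℂ × ℂ => (p.2.1, p.2.2)) (X, ε, z)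
      (differentiableAt_Xz hε) h2
  have h5 : DifferentiableAt ℂ (fun p : ℂ × ℂ × ℂ => (Xz p.2.1 p.2.2)⁻¹) (X, ε, z) :=
    h4.inv (Xz_ne_zero hε)
  have h6 : DifferentiableAt ℂ (fun p : ℂ × ℂ × ℂ => p.1 * (Xz p.2.1 p.2.2)⁻¹) (X, ε, z) :=
    differentiableAt_fst.mul h5
  have h7 : DifferentiableAt ℂ (fun p : ℂ × ℂ × ℂ => 1 - p.1 / Xz p.2.1 p.2.2) (X, ε, z) :=
    (differentiableAt_const _).sub h6
  exact (h3.inv (rz_ne_zero hε)).mul (h7.clog (slit_X hε hX)).neg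

/-- `q0` is holomorphic in all variables -/
theorem differentiableOn_q0 (hV : IsOpen V) (hr : r < r₂)
    (hH : DifferentiableOn ℂ H (V ×ˢ ball 0 r₂)) :
    DifferentiableOn ℂ (fun p : ℂ × ℂ × L => q0 (fun z => H (p.2.2, z)) r p.1 p.2.1)
      (ball 0 r ×ˢ ball 0 (r ^ 2) ×ˢ V) := by
  refine differentiableOn_kernel
    (K := fun p => (rz p.2.1 p.2.2)⁻¹ * (Xz p.2.1 p.2.2 - p.1)⁻¹) ?_ hV hr hH
  intro X ε z hX hε
  have h2 : DifferentiableAt ℂ (fun p : ℂ × ℂ × ℂ => (p.2.1, p.2.2)) (X, ε, z) := by fun_prop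
  have h3 : DifferentiableAt ℂ (fun p : ℂ × ℂ × ℂ => rz p.2.1 p.2.2) (X, ε, z) :=
    DifferentiableAt.comp (f := fun p : ℂ × ℂ × ℂ => (p.2.1, p.2.2)) (X, ε, z)
      (differentiableAt_rz hε) h2
  have h4 : DifferentiableAt ℂ (fun p : ℂ × ℂ × ℂ => Xz p.2.1 p.2.2) (X, ε, z) :=
    DifferentiableAt.comp (f := fun p : ℂ × ℂ × ℂ => (p.2.1, p.2.2)) (X, ε, z)
      (differentiableAt_Xz hε) h2
  have h5 : DifferentiableAt ℂ (fun p : ℂ × ℂ × ℂ => Xz p.2.1 p.2.2 - p.1) (X, ε, z) :=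
    h4.sub differentiableAt_fst
  exact (h3.inv (rz_ne_zero hε)).mul (h5.inv (sub_ne_zero.2 (Xz_ne hε hX)))

/-- `c0` is holomorphic in all variables -/
theorem differentiableOn_c0 (hV : IsOpen V) (hr0 : 0 < r) (hr : r < r₂)
    (hH : DifferentiableOn ℂ H (V ×ˢ ball 0 r₂)) :
    DifferentiableOn ℂ (fun p : ℂ × L => c0 (fun z => H (p.2, z)) r p.1)
      (ball 0 (r ^ 2) ×ˢ V) := by
  have key : DifferentiableOn ℂ (fun p : ℂ × ℂ × L => (2 * π * I : ℂ)⁻¹ •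
      ∮ z in C(0, r), (rz p.2.1 z)⁻¹ • H (p.2.2, z)) (ball 0 r ×ˢ ball 0 (r ^ 2) ×ˢ V) := by
    refine differentiableOn_kernel (K := fun p => (rz p.2.1 p.2.2)⁻¹) ?_ hV hr hH
    intro X ε z _ hε
    have h2 : DifferentiableAt ℂ (fun p : ℂ × ℂ × ℂ => (p.2.1, p.2.2)) (X, ε, z) := by fun_prop
    have h3 : DifferentiableAt ℂ (fun p : ℂ × ℂ × ℂ => rz p.2.1 p.2.2) (X, ε, z) :=
      DifferentiableAt.comp (f := fun p : ℂ × ℂ × ℂ => (p.2.1, p.2.2)) (X, ε, z)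
        (differentiableAt_rz hε) h2
    exact h3.inv (rz_ne_zero hε)
  have hi : DifferentiableOn ℂ (fun p : ℂ × L => ((0 : ℂ), p.1, p.2)) (ball 0 (r ^ 2) ×ˢ V) :=
    ((differentiable_const (0 : ℂ)).prodMk
      (differentiable_fst.prodMk differentiable_snd)).differentiableOn
  have hm : MapsTo (fun p : ℂ × L => ((0 : ℂ), p.1, p.2)) (ball 0 (r ^ 2) ×ˢ V)
      (ball 0 r ×ˢ ball 0 (r ^ 2) ×ˢ V) := fun p hp => ⟨mem_ball_self hr0, hp.1, hp.2⟩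
  have := key.comp hi hm
  unfold c0
  exact this

/-- value at the node -/
theorem c0_zero {h : ℂ → F} (hr0 : 0 < r) (hh : DiffContOnCl ℂ h (ball 0 r)) :
    c0 h r 0 = h 0 := by
  have := split hh (X := 0) (Y := 0) (ε := 0) (by simpa using hr0) (by simpa using hr0) (by simp)
  simp at this
  exact this.symm

end main

end

end Vale.Agent.P273.H598
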