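import Vale.Agent.P273.H598.Neck
import Vale.Agent.P273.H908.Cut

/-!
# P273, periods: the neck formula for a primitive on the plane with two downward cuts (helper598)

`sg d z = rt (z + d) * rt (z - d)`, `XS d z = z + sg d z`; `XS` never meets the downward half line.  A
primitive `Q` of `h / sg` in the square without the two cuts is
`const + lg (XS) c0 + P0 (XS) - P0 (d ^ 2 / XS)`.
-/

open Set Metric Filter Complex
open scoped Topology Real

namespace Vale.Agent.P273.H598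

open Vale.Agent.P273.H908

noncomputable section

/-- the logarithm with the cut `-i [0, ∞)` -/
def lg (z : ℂ) : ℂ := log (-I * z) + (π / 2) * I

lemma exp_lg {z : ℂ} (hz : z ≠ 0) : exp (lg z) = z := by
  unfold lg
  rw [exp_add, exp_log (by simpa using hz), exp_pi_div_two_mul_I]
  linear_combination (-z) * I_sq

lemma hasDerivAt_lg {z : ℂ} (hz : z ∈ Sl) : HasDerivAt lg z⁻¹ z := by
  have h0 := Sl_ne_zero hz
  have h1 : HasDerivAt (fun z : ℂ => -I * z) (-I) z := by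
    simpa using (hasDerivAt_id z).const_mul (-I)
  have h2 := (h1.clog (mem_Sl.1 hz)).add_const ((π / 2) * I : ℂ)
  have e : -I / (-I * z) = z⁻¹ := by
    field_simp
  rw [e] at h2
  exact h2

lemma continuousAt_lg {z : ℂ} (hz : z ∈ Sl) : ContinuousAt lg z := (hasDerivAt_lg hz).continuousAt

/-- the branch of `√(z² - d²)` with downward cuts -/
def sg (d z : ℂ) : ℂ := rt (z + d) * rt (z - d)

/-- the neck coordinate -/
def XS (d z : ℂ) : ℂ := z + sg d z

def Dom (d : ℂ) : Set ℂ := {z | z + d ∈ Sl ∧ z - d ∈ Sl}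

lemma isOpen_Dom (d : ℂ) : IsOpen (Dom d) :=
  (isOpen_Sl.preimage (by fun_prop : Continuous fun z : ℂ => z + d)).inter
    (isOpen_Sl.preimage (by fun_prop : Continuous fun z : ℂ => z - d))

lemma sg_sq (d z : ℂ) : sg d z ^ 2 = z ^ 2 - d ^ 2 := by
  unfold sg
  rw [mul_pow, rt_sq, rt_sq]
  ring

lemma sg_neg (d z : ℂ) : sg (-d) z = sg d z := by
  unfold sg
  rw [sub_neg_eq_add, ← sub_eq_add_neg, mul_comm]

lemma XS_neg (d z : ℂ) : XS (-d) z = XS d z := by
  unfold XS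
  rw [sg_neg]

lemma XS_mul (d z : ℂ) : XS d z * (z - sg d z) = d ^ 2 := by
  unfold XS
  linear_combination (-1 : ℂ) * sg_sq d z

/-- `e^(-iπ/4) rt z` has positive real part -/
lemma rot_rt_re {z : ℂ} (hz : z ∈ Sl) : 0 < (exp (-(I * (π / 4))) * rt z).re := by
  have h1 := sqrt_re_pos (mem_Sl.1 hz)
  unfold rt
  rw [← mul_assoc, ← exp_add, neg_add_cancel, exp_zero, one_mul, one_div]
  exact h1

lemma slit_of_sq {v : ℂ} (hv : 0 < v.re) : v ^ 2 / 2 ∈ slitPlane := by
  rw [mem_slitPlane_iff]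
  by_cases h : v.im = 0
  · left
    have : (v ^ 2 / 2).re = (v.re * v.re - v.im * v.im) / 2 := by
      rw [pow_two]
      simp
    rw [this, h]
    nlinarith
  · right
    have : (v ^ 2 / 2).im = v.re * v.im := by
      rw [pow_two]
      simp
      ring
    rw [this]
    exact mul_ne_zero hv.ne' h

/-- the neck coordinate never meets the cut -/
lemma XS_mem {d z : ℂ} (hz : z ∈ Dom d) : XS d z ∈ Sl := by
  rw [mem_Sl]
  set a := rt (z + d)
  set b := rt (z - d)
  have ha := rot_rt_re hz.1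
  have hb := rot_rt_re hz.2
  have hab : 0 < (exp (-(I * (π / 4))) * (a + b)).re := by
    rw [mul_add, add_re]
    exact add_pos ha hb
  have e : -I * XS d z = (exp (-(I * (π / 4))) * (a + b)) ^ 2 / 2 := by
    have e1 : exp (-(I * (π / 4))) ^ 2 = -I := by
      rw [exp_neg, inv_pow, exp_quarter_sq, inv_I]
    have e2 : XS d z = (a + b) ^ 2 / 2 := by
      have h1 : a ^ 2 = z + d := rt_sq _
      have h2 : b ^ 2 = z - d := rt_sq _
      have h3 : sg d z = a * b := rfl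
      unfold XS
      rw [h3]
      linear_combination (-1 / 2 : ℂ) * h1 - (1 / 2 : ℂ) * h2
    rw [mul_pow, e1, e2]
    ring
  rw [e]
  exact slit_of_sq hab

lemma XS_ne_zero {d z : ℂ} (hz : z ∈ Dom d) : XS d z ≠ 0 := Sl_ne_zero (XS_mem hz)

lemma div_XS {d z : ℂ} (hz : z ∈ Dom d) : d ^ 2 / XS d z = z - sg d z := by
  rw [div_eq_iff (XS_ne_zero hz), ← XS_mul d z]
  ring

lemma sg_ne_zero {d z : ℂ} (hz : z ∈ Dom d) : sg d z ≠ 0 :=
  mul_ne_zero (rt_ne_zero (Sl_ne_zero hz.1)) (rt_ne_zero (Sl_ne_zero hz.2))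

lemma hasDerivAt_sg {d z : ℂ} (hz : z ∈ Dom d) : HasDerivAt (sg d) (z / sg d z) z := by
  have h1 : HasDerivAt (fun z => rt (z + d)) (1 / (2 * rt (z + d))) z := by
    exact HasDerivAt.comp_add_const z d (hasDerivAt_rt hz.1)
  have h2 : HasDerivAt (fun z => rt (z - d)) (1 / (2 * rt (z - d))) z := by
    exact HasDerivAt.comp_sub_const z d (hasDerivAt_rt hz.2)
  have h3 := h1.mul h2
  have n1 := rt_ne_zero (Sl_ne_zero hz.1)
  have n2 := rt_ne_zero (Sl_ne_zero hz.2)
  have e : 1 / (2 * rt (z + d)) * rt (z - d) + rt (z + d) * (1 / (2 * rt (z - d))) =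
      z / sg d z := by
    have q1 := rt_sq (z + d)
    have q2 := rt_sq (z - d)
    unfold sg
    field_simp
    linear_combination q1 + q2
  rw [e] at h3
  exact h3

lemma hasDerivAt_XS {d z : ℂ} (hz : z ∈ Dom d) : HasDerivAt (XS d) (XS d z / sg d z) z := by
  have h := (hasDerivAt_id z).add (hasDerivAt_sg hz)
  have e : 1 + z / sg d z = XS d z / sg d z := by
    have := sg_ne_zero hz
    unfold XS
    field_simp
    ring
  rw [e] at h
  exact h

lemma norm_sg_le (d z : ℂ) : ‖sg d z‖ ≤ ‖z‖ + ‖d‖ := by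
  have h1 : ‖sg d z‖ ^ 2 ≤ (‖z‖ + ‖d‖) ^ 2 := by
    rw [← norm_pow, sg_sq]
    have h2 := norm_sub_le (z ^ 2) (d ^ 2)
    rw [norm_pow, norm_pow] at h2
    nlinarith [norm_nonneg z, norm_nonneg d]
  exact (pow_le_pow_iff_left₀ (norm_nonneg _) (by positivity) two_ne_zero).1 h1

lemma norm_XS_le (d z : ℂ) : ‖XS d z‖ ≤ 2 * ‖z‖ + ‖d‖ := by
  have h1 := norm_sg_le d z
  have h2 := norm_add_le z (sg d z)
  unfold XS
  linarith

lemma norm_YS_le (d z : ℂ) : ‖z - sg d z‖ ≤ 2 * ‖z‖ + ‖d‖ := by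
  have h1 := norm_sg_le d z
  have h2 := norm_sub_le z (sg d z)
  linarith

/-- the square -/
def Sq (ρ : ℝ) : Set ℂ := {z | |z.re| < ρ ∧ |z.im| < ρ}

lemma isOpen_Sq (ρ : ℝ) : IsOpen (Sq ρ) :=
  (isOpen_lt (continuous_abs.comp continuous_re) continuous_const).inter
    (isOpen_lt (continuous_abs.comp continuous_im) continuous_const)

lemma norm_lt_of_Sq {ρ : ℝ} {z : ℂ} (hz : z ∈ Sq ρ) : ‖z‖ < 2 * ρ := by
  have h1 := Complex.norm_le_abs_re_add_abs_im z
  have h2 := hz.1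
  have h3 := hz.2
  linarith

lemma Sl_up {z w : ℂ} (hz : z ∈ Sl) (h1 : w.re = z.re) (h2 : z.im ≤ w.im) : w ∈ Sl := by
  rcases hz with h | h
  · left; exact lt_of_lt_of_le h h2
  · right; rw [h1]; exact h

lemma isPreconnected_Dom {d : ℂ} {ρ : ℝ} (hd : ‖d‖ < ρ) : IsPreconnected (Dom d ∩ Sq ρ) := by
  have hρ : 0 < ρ := lt_of_le_of_lt (norm_nonneg _) hd
  obtain ⟨t, ht1, ht2⟩ := exists_between hd
  have ht0 : 0 < t := lt_of_le_of_lt (norm_nonneg _) ht1
  have hdi := abs_le.1 (abs_im_le_norm d)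
  set T : Set ℂ := {z | |z.re| < ρ ∧ ‖d‖ < z.im ∧ z.im < ρ} with hT
  have hTs : T ⊆ Dom d ∩ Sq ρ := by
    intro z hz
    obtain ⟨h1, h2, h3⟩ := hz
    refine ⟨⟨Or.inl ?_, Or.inl ?_⟩, h1, ?_⟩
    · rw [add_im]; linarith [hdi.1]
    · rw [sub_im]; linarith [hdi.2]
    · rw [abs_of_pos (lt_of_le_of_lt (norm_nonneg d) h2)]; exact h3
  have hTc : Convex ℝ T := by
    have e : T = (reCLM ⁻¹' ball 0 ρ) ∩ (imCLM ⁻¹' Ioo ‖d‖ ρ) := by
      ext z
      simp only [hT, Set.mem_ofPred_eq, mem_inter_iff, mem_preimage, mem_Ioo, mem_ball_zero_iff,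
        reCLM_apply, imCLM_apply, Real.norm_eq_abs]
    rw [e]
    exact ((convex_ball (0 : ℝ) ρ).linear_preimage reCLM.toLinearMap).inter
      ((convex_Ioo ‖d‖ ρ).linear_preimage imCLM.toLinearMap)
  have hx : (⟨0, t⟩ : ℂ) ∈ T := ⟨by simpa using hρ, ht1, ht2⟩
  refine isPreconnected_of_forall (⟨0, t⟩ : ℂ) fun y hy => ?_
  obtain ⟨⟨hy1, hy2⟩, hy3, hy4⟩ := hy
  set y' : ℂ := ⟨y.re, max y.im t⟩ with hy'
  have hy'T : y' ∈ T := ⟨hy3, lt_of_lt_of_le ht1 (le_max_right _ _),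
    max_lt (abs_lt.1 hy4).2 ht2⟩
  have hseg : segment ℝ y y' ⊆ Dom d ∩ Sq ρ := by
    intro w hw
    obtain ⟨a, b, ha, hb, hab, rfl⟩ := hw
    have e1 : (a • y + b • y').re = y.re := by
      simp only [add_re, real_smul, re_ofReal_mul]
      show a * y.re + b * y.re = y.re
      rw [← add_mul, hab, one_mul]
    have e2 : (a • y + b • y').im = a * y.im + b * max y.im t := by
      simp only [add_im, real_smul, im_ofReal_mul]
      rfl
    have e3 : y.im ≤ (a • y + b • y').im := by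
      rw [e2]
      have h1 := mul_le_mul_of_nonneg_left (le_max_left y.im t) hb
      have h2 : a * y.im + b * y.im = y.im := by rw [← add_mul, hab, one_mul]
      linarith
    have e4 : (a • y + b • y').im ≤ max y.im t := by
      rw [e2]
      have h1 := mul_le_mul_of_nonneg_left (le_max_left y.im t) ha
      have h2 : a * max y.im t + b * max y.im t = max y.im t := by rw [← add_mul, hab, one_mul]
      linarith
    generalize a • y + b • y' = w at e1 e2 e3 e4 ⊢
    refine ⟨⟨Sl_up hy1 ?_ ?_, Sl_up hy2 ?_ ?_⟩, ?_, ?_⟩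
    · rw [add_re, add_re, e1]
    · rw [add_im, add_im]; linarith
    · rw [sub_re, sub_re, e1]
    · rw [sub_im, sub_im]; linarith
    · rw [e1]; exact hy3
    · rw [abs_lt]
      constructor
      · have := (abs_lt.1 hy4).1; linarith
      · exact lt_of_le_of_lt e4 (max_lt (abs_lt.1 hy4).2 ht2)
  refine ⟨segment ℝ y y' ∪ T, union_subset hseg hTs, Or.inr hx,
    Or.inl (left_mem_segment ℝ y y'), ?_⟩
  exact IsPreconnected.union y' (right_mem_segment ℝ y y') hy'T
    (convex_segment y y').isPreconnected hTc.isPreconnected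

section primitive

variable {F : Type*} [NormedAddCommGroup F] [NormedSpace ℂ F] [CompleteSpace F]

/-- the primitive in the neck, as a function of `z` -/
def NN (h : ℂ → F) (r : ℝ) (d z : ℂ) : F :=
  lg (XS d z) • c0 h r (d ^ 2) + (P0 h r (XS d z) (d ^ 2) - P0 h r (d ^ 2 / XS d z) (d ^ 2))

theorem hasDerivAt_NN {h : ℂ → F} {r : ℝ} (hh : DiffContOnCl ℂ h (ball 0 r)) {d z : ℂ}
    (hz : z ∈ Dom d) (hr : 2 * ‖z‖ + ‖d‖ < r) :
    HasDerivAt (NN h r d) ((sg d z)⁻¹ • h z) z := by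
  have hX := lt_of_le_of_lt (norm_XS_le d z) hr
  have hY := lt_of_le_of_lt (norm_YS_le d z) hr
  rw [← div_XS hz] at hY
  have h0 := XS_ne_zero hz
  have hs := sg_ne_zero hz
  have h1 := ((hasDerivAt_lg (XS_mem hz)).comp z (hasDerivAt_XS hz)).smul_const (c0 h r (d ^ 2))
  have h2 := (hasDerivAt_neck hh h0 hX hY).scomp z (hasDerivAt_XS hz)
  have h3 := h1.add h2
  have e1 : (XS d z + d ^ 2 / XS d z) / 2 = z := by
    rw [div_XS hz]
    unfold XS
    ring
  have e : ((XS d z)⁻¹ * (XS d z / sg d z)) • c0 h r (d ^ 2) + (XS d z / sg d z) •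
      (XS d z)⁻¹ • (h ((XS d z + d ^ 2 / XS d z) / 2) - c0 h r (d ^ 2)) = (sg d z)⁻¹ • h z := by
    rw [e1, smul_smul]
    have e2 : (XS d z)⁻¹ * (XS d z / sg d z) = (sg d z)⁻¹ := by field_simp
    have e3 : (XS d z / sg d z) * (XS d z)⁻¹ = (sg d z)⁻¹ := by field_simp
    rw [e2, e3, smul_sub]
    abel
  rw [e] at h3
  exact h3

/-- **the neck formula**: every primitive of `h / sg` on the square without the cuts -/
theorem neck_formula {h : ℂ → F} {ρ : ℝ} (hh : DiffContOnCl ℂ h (ball 0 (5 * ρ))) {d : ℂ}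
    (hd : ‖d‖ < ρ) {Q : ℂ → F} (hQ : ∀ z ∈ Dom d ∩ Sq ρ, HasDerivAt Q ((sg d z)⁻¹ • h z) z)
    {z w : ℂ} (hz : z ∈ Dom d ∩ Sq ρ) (hw : w ∈ Dom d ∩ Sq ρ) :
    Q z - NN h (5 * ρ) d z = Q w - NN h (5 * ρ) d w := by
  have hN : ∀ z ∈ Dom d ∩ Sq ρ, HasDerivAt (NN h (5 * ρ) d) ((sg d z)⁻¹ • h z) z := by
    intro z hz
    refine hasDerivAt_NN hh hz.1 ?_
    have := norm_lt_of_Sq hz.2
    linarith
  have hD : ∀ z ∈ Dom d ∩ Sq ρ, HasDerivAt (fun z => Q z - NN h (5 * ρ) d z) 0 z := by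
    intro z hz
    have := (hQ z hz).sub (hN z hz)
    rw [sub_self] at this
    exact this
  exact ((isOpen_Dom d).inter (isOpen_Sq ρ)).is_const_of_deriv_eq_zero (isPreconnected_Dom hd)
    (fun z hz => (hD z hz).differentiableAt.differentiableWithinAt)
    (fun z hz => (hD z hz).deriv) hz hw

/-! ### the values at the roots -/

lemma tendsto_sg_root (d : ℂ) : Tendsto (sg d) (𝓝[Dom d] d) (𝓝 0) := by
  have h1 : ∀ z, ‖sg d z‖ = Real.sqrt (‖z + d‖ * ‖z - d‖) := by
    intro z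
    rw [← norm_mul]
    have h2 : ‖sg d z‖ ^ 2 = ‖(z + d) * (z - d)‖ := by
      rw [← norm_pow, sg_sq]
      congr 1
      ring
    rw [← h2, Real.sqrt_sq (norm_nonneg _)]
  rw [tendsto_zero_iff_norm_tendsto_zero]
  simp only [h1]
  have h2 : ContinuousAt (fun z => Real.sqrt (‖z + d‖ * ‖z - d‖)) d := by fun_prop
  have h3 : Real.sqrt (‖d + d‖ * ‖d - d‖) = 0 := by simp
  have h4 := h2.tendsto
  rw [h3] at h4
  exact h4.mono_left nhdsWithin_le_nhds

omit [CompleteSpace F] in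
/-- the limit of the primitive at the root `d` -/
theorem tendsto_NN_root {h : ℂ → F} {r : ℝ} (hh : ContinuousOn h (sphere 0 r)) {d : ℂ}
    (hd : d ∈ Sl) (hr : ‖d‖ < r) :
    Tendsto (NN h r d) (𝓝[Dom d] d) (𝓝 (lg d • c0 h r (d ^ 2))) := by
  have hr0 : 0 < r := lt_of_le_of_lt (norm_nonneg _) hr
  have hε : ‖d ^ 2‖ < r ^ 2 := by
    rw [norm_pow]
    exact pow_lt_pow_left₀ hr (norm_nonneg _) two_ne_zero
  have hid : Tendsto (fun z : ℂ => z) (𝓝[Dom d] d) (𝓝 d) := tendsto_id.mono_left nhdsWithin_le_nhds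
  have hX : Tendsto (XS d) (𝓝[Dom d] d) (𝓝 d) := by
    have := hid.add (tendsto_sg_root d)
    rw [add_zero] at this
    exact this
  have hY : Tendsto (fun z => d ^ 2 / XS d z) (𝓝[Dom d] d) (𝓝 d) := by
    have h1 := hid.sub (tendsto_sg_root d)
    rw [sub_zero] at h1
    refine h1.congr' ?_
    filter_upwards [self_mem_nhdsWithin] with z hz
    exact (div_XS hz).symm
  have hP : ContinuousAt (fun X => P0 h r X (d ^ 2)) d := (hasDerivAt_P0 hh hr hε).continuousAt
  have h1 := ((continuousAt_lg hd).tendsto.comp hX).smul_const (c0 h r (d ^ 2))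
  have h2 := (hP.tendsto.comp hX).sub (hP.tendsto.comp hY)
  have h3 := h1.add h2
  rw [sub_self, add_zero] at h3
  exact h3

lemma nhdsWithin_Dom_neBot {d : ℂ} (hd : d ∈ Sl) : (𝓝[Dom d] d).NeBot := by
  rw [← mem_closure_iff_nhdsWithin_neBot]
  have h1 : Tendsto (fun t : ℝ => d + t * I) (𝓝[>] 0) (𝓝 d) := by
    have : ContinuousAt (fun t : ℝ => d + t * I) 0 := by fun_prop
    have h2 := this.tendsto
    simp only [ofReal_zero, zero_mul, add_zero] at h2
    exact h2.mono_left nhdsWithin_le_nhds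
  refine mem_closure_of_tendsto h1 ?_
  filter_upwards [self_mem_nhdsWithin] with t ht
  have ht' : 0 < t := ht
  refine ⟨?_, Or.inl ?_⟩
  · rcases hd with h | h
    · left
      simp
      linarith
    · right
      simp
      intro hc
      apply h
      linarith
  · simp
    exact ht'

end primitive

/-! ### outside of a disc `sg` depends on `d ^ 2` only -/

lemma mem_Sl_of_norm_lt {z d : ℂ} (hz : 0 ≤ z.im) (hd : ‖d‖ < ‖z‖) : z + d ∈ Sl := by
  by_contra hc
  simp only [Sl, Set.mem_ofPred_eq, not_or, not_lt, not_not] at hc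
  obtain ⟨h1, h2⟩ := hc
  rw [add_im] at h1
  rw [add_re] at h2
  have h3 : ‖z‖ ^ 2 ≤ ‖d‖ ^ 2 := by
    rw [← normSq_eq_norm_sq, ← normSq_eq_norm_sq, normSq_apply, normSq_apply]
    have e : d.re = -z.re := by linarith
    rw [e]
    nlinarith
  have h4 := (pow_le_pow_iff_left₀ (norm_nonneg _) (norm_nonneg _) two_ne_zero).1 h3
  linarith

lemma rz_zero (z : ℂ) : rz 0 z = z := by
  unfold rz
  simp

theorem sg_eq_rz {z : ℂ} {ρ : ℝ} (hρ : ρ ≤ ‖z‖) (hs : ∀ d ∈ ball (0 : ℂ) ρ, z + d ∈ Sl) {d : ℂ}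
    (hd : d ∈ ball (0 : ℂ) ρ) : sg d z = rz (d ^ 2) z := by
  have hρ0 : 0 < ρ := lt_of_le_of_lt (norm_nonneg _) (mem_ball_zero_iff.1 hd)
  have hlt : ∀ d ∈ ball (0 : ℂ) ρ, ‖d ^ 2‖ < ‖z‖ ^ 2 := by
    intro d hd
    rw [norm_pow]
    exact pow_lt_pow_left₀ (lt_of_lt_of_le (mem_ball_zero_iff.1 hd) hρ) (norm_nonneg _) two_ne_zero
  have hz0 : z ≠ 0 := ne_zero_of_lt (hlt 0 (mem_ball_self hρ0))
  have hc : ContinuousOn (fun d => sg d z) (ball (0 : ℂ) ρ) := by
    intro d hd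
    have h1 : z + d ∈ Sl := hs d hd
    have h2 : z - d ∈ Sl := by
      have := hs (-d) (by rw [mem_ball_zero_iff, norm_neg]; exact mem_ball_zero_iff.1 hd)
      rwa [← sub_eq_add_neg] at this
    have c1 : ContinuousAt (fun d => rt (z + d)) d :=
      ContinuousAt.comp (f := fun d => z + d) (continuousAt_rt h1) (by fun_prop)
    have c2 : ContinuousAt (fun d => rt (z - d)) d :=
      ContinuousAt.comp (f := fun d => z - d) (continuousAt_rt h2) (by fun_prop)
    exact (c1.mul c2).continuousWithinAt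
  have hg : ContinuousOn (fun d => rz (d ^ 2) z) (ball (0 : ℂ) ρ) := by
    intro d hd
    have h1 := (differentiableAt_rz (hlt d hd)).continuousAt
    have h2 : ContinuousAt (fun d : ℂ => (d ^ 2, z)) d := by fun_prop
    exact (ContinuousAt.comp (f := fun d : ℂ => (d ^ 2, z)) h1 h2).continuousWithinAt
  have key := (convex_ball (0 : ℂ) ρ).isPreconnected.eq_of_sq_eq hc hg (fun d hd => by
      simp only [Pi.pow_apply]
      rw [sg_sq, rz_sq hz0]) (fun {d} hd => rz_ne_zero (hlt d hd)) (mem_ball_self hρ0) (by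
      show sg 0 z = rz (0 ^ 2) z
      unfold sg
      rw [add_zero, sub_zero, ← pow_two, rt_sq, zero_pow two_ne_zero, rz_zero])
  exact key hd

end

end Vale.Agent.P273.H598
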