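import Vale.Agent.P273.H598.Node1
import Vale.Agent.P273.H595.Om

/-!
# P273, periods: the input of the one node files from the rows of helper857 (helper598)
-/

open Set Filter Complex
open scoped Topology

namespace Vale.Agent.P273.H598

open Vale.Agent.P273.H595

/-- the input of the one node files -/
theorem PotHyp.of (h1 : StmHOLn) (h2 : StmHOLRn) (h3 : StmROOTn) (h4 : StmFLIPRn)
    (h5 : StmFLIPLn) : PotHyp where
  hol k hk B := differentiableOn_P h1 hk B
  der k hk B b x hx := (h1 k B b x hk hx.2 hx.1).2
  root k hk B b j hj ho hs := tendsto_root h3 hk hj hs ho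
  flipL k hk B m b x hs hm h h' hx := h5 k B b x m hk hs hm h h' hx
  flipR k hk B m b x hs hm h h' hx := h4 k B b x m hk hs hm h h' hx.le
  holX k hk j := differentiableOn_piX h2 hk j

end Vale.Agent.P273.H598
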