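import Vale.Agent.P273.H598.NeckPar
import Vale.Agent.P273.H598.Cross
import Vale.Agent.P273.H857.Def
import Vale.Agent.P273.H828.AnnDefs

/-!
# P273, periods: one node (helper598)

`b = bb i (d, q)`: the labels `i`, `i + 1` at `e - d`, `e + d`, `e = q i`, the other points at `q l`.  The
primitive on the plane is `kap + NN` near `e`, with `kap` holomorphic in `(d, q)` also at `d = 0`.
-/

open Set Metric Filter Complex
open scoped Topology Real

namespace Vale.Agent.P273.H598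

open Vale.Agent.P273.H908 (rt Sl)
open Vale.Agent.P273.H857 (br Sb sq OK P lo piX C6)
open Vale.Agent.P273.H828 (pr XD)

noncomputable section

/-- the natural domain of the primitive -/
def Om (B : Finset (Fin 6)) : Set (C6 × ℂ) := {p | OK B p.1 p.2 ∧ ∀ l, p.1 l ≠ p.2}

/-- the natural domain of the half period of the label `j` -/
def OmX (j : Fin 6) : Set C6 := {b | OK (lo j) b (b j) ∧ ∀ l, l ≠ j → b l ≠ b j}

lemma mem_Om {B : Finset (Fin 6)} {b : C6} {x : ℂ} : (b, x) ∈ Om B ↔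
    (∀ l, x - b l ∈ Sb B l) ∧ ∀ l ∈ B, ∀ m ∉ B, b l - b m ∈ Sl ∨ (b l).re < x.re := by
  constructor
  · rintro ⟨⟨h1, h2⟩, h3⟩
    have h4 : ∀ l, x - b l ∈ Sb B l := by
      intro l
      rw [H857.mem_Sb_iff]
      intro h
      rw [sub_re] at h
      rw [sub_im]
      have h5 := h2 l (h3 l) (by show (b l).re = x.re; linarith)
      exact ⟨fun hB => by linarith [h5.1 hB], fun hB => by linarith [h5.2 hB]⟩
    refine ⟨h4, fun l hl m hm => ?_⟩
    by_cases e : (b l).re = (b m).re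
    · rcases lt_trichotomy (b l).re x.re with h | h | h
      · exact Or.inr h
      · left
        left
        have h5 := (h2 l (h3 l) h).1 hl
        have h6 := (h2 m (h3 m) (e.symm.trans h)).2 hm
        rw [sub_im]
        simp only at h5 h6
        linarith
      · left
        left
        have := h1 l hl m hm e h
        rw [sub_im]
        simp only at this
        linarith
    · left
      right
      rw [sub_re]
      exact sub_ne_zero.2 e
  · rintro ⟨h1, h2⟩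
    refine ⟨⟨fun l hl m hm e hx => ?_, fun l _ e => ?_⟩, fun l hc => ?_⟩
    · rcases h2 l hl m hm with (h | h) | h
      · rw [sub_im] at h
        simp only
        linarith
      · rw [sub_re] at h
        exact absurd (sub_eq_zero.2 e) h
      · simp only at hx
        linarith
    · have h3 := h1 l
      rw [H857.mem_Sb_iff] at h3
      simp only at e
      have h4 := h3 (by rw [sub_re, e, sub_self])
      rw [sub_im] at h4
      simp only
      exact ⟨fun hB => by linarith [h4.1 hB], fun hB => by linarith [h4.2 hB]⟩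
    · simp only at hc
      exact H857.Sb_ne_zero (h1 l) (by rw [hc, sub_self])

lemma isOpen_Om (B : Finset (Fin 6)) : IsOpen (Om B) := by
  have e : Om B = (⋂ l, {p : C6 × ℂ | p.2 - p.1 l ∈ Sb B l}) ∩
      ⋂ l, ⋂ m, ⋂ (_ : l ∈ B), ⋂ (_ : m ∉ B),
        ({p : C6 × ℂ | p.1 l - p.1 m ∈ Sl} ∪ {p : C6 × ℂ | (p.1 l).re < p.2.re}) := by
    ext ⟨b, x⟩
    rw [mem_Om]
    simp only [mem_inter_iff, mem_iInter, mem_union, Set.mem_ofPred_eq]
    exact and_congr_right fun _ => ⟨fun h l m hl hm => h l hl m hm, fun h l hl m hm => h l m hl hm⟩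
  rw [e]
  refine IsOpen.inter ?_ ?_
  · refine isOpen_iInter_of_finite fun l => (H857.isOpen_Sb B l).preimage ?_
    fun_prop
  · refine isOpen_iInter_of_finite fun l => isOpen_iInter_of_finite fun m =>
      isOpen_iInter_of_finite fun _ => isOpen_iInter_of_finite fun _ => IsOpen.union ?_ ?_
    · refine H908.isOpen_Sl.preimage ?_
      fun_prop
    · exact isOpen_lt (by fun_prop) (by fun_prop)

/-- the theorems about the primitives which are used here -/
structure PotHyp : Prop where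
  hol : ∀ k ≤ 1, ∀ B, DifferentiableOn ℂ (fun p : C6 × ℂ => P k B p.1 p.2) (Om B)
  der : ∀ k ≤ 1, ∀ B b x, (b, x) ∈ Om B → HasDerivAt (P k B b) (x ^ k / sq B b x) x
  root : ∀ k ≤ 1, ∀ B b j, j ∉ B → OK B b (b j) → (∀ l, l ≠ j → b l ≠ b j) →
    Tendsto (P k B b) (𝓝[{x | x - b j ∈ Sl}] (b j)) (𝓝 (P k B b (b j)))
  flipL : ∀ k ≤ 1, ∀ B m b x, (∀ l l', b l = x → b l' = x → l = l') → m ∉ B → OK B b x →
    OK (insert m B) b x → x.re < (b m).re →
    P k (insert m B) b x + P k B b x = 2 * P k B b (b m)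
  flipR : ∀ k ≤ 1, ∀ B m b x, (∀ l l', b l = x → b l' = x → l = l') → m ∉ B → OK B b x →
    OK (insert m B) b x → (b m).re < x.re → P k (insert m B) b x = P k B b x
  holX : ∀ k ≤ 1, ∀ j, DifferentiableOn ℂ (piX k j) (OmX j)

lemma rt_eq (z : ℂ) : Vale.Agent.P273.H857.rt z = rt z := by
  unfold Vale.Agent.P273.H857.rt rt
  rw [mul_div_assoc]

lemma Sl_eq : Vale.Agent.P273.H857.Sl = Sl := rfl

lemma mem_lo {j l : Fin 6} : l ∈ lo j ↔ l < j := by simp [lo]

variable (i : Fin 5)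

/-- the configuration with one small pair -/
def bb (p : ℂ × C6) : C6 := pr i p.2 (p.2 i.castSucc) p.1

lemma succ_ne : i.succ ≠ i.castSucc := by
  intro h
  have := congrArg Fin.val h
  simp at this

lemma bb_zero (d : ℂ) (q : C6) : bb i (d, q) i.castSucc = q i.castSucc - d := by
  simp [bb, pr]

lemma bb_one (d : ℂ) (q : C6) : bb i (d, q) i.succ = q i.castSucc + d := by
  simp [bb, pr, succ_ne i]

lemma bb_of_ne {l : Fin 6} (h0 : l ≠ i.castSucc) (h1 : l ≠ i.succ) (d : ℂ) (q : C6) :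
    bb i (d, q) l = q l := by
  simp [bb, pr, h0, h1]

/-- the other labels -/
def oth : Finset (Fin 6) := (Finset.univ.erase i.castSucc).erase i.succ

lemma mem_oth {l : Fin 6} : l ∈ oth i ↔ l ≠ i.succ ∧ l ≠ i.castSucc := by
  simp [oth]

/-- product of the four other roots -/
def GG (q : C6) (z : ℂ) : ℂ := ∏ l ∈ oth i, br (lo i.castSucc) l (q i.castSucc + z - q l)

/-- the holomorphic factor near the node -/
def HH (k : ℕ) (p : C6 × ℂ) : ℂ := (p.1 i.castSucc + p.2) ^ k / GG i p.1 p.2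

/-- good points near the node: no cut of the other roots -/
def Gd : Set (C6 × ℂ) :=
  {p | ∀ l ∈ oth i, p.1 i.castSucc + p.2 - p.1 l ∈ Sb (lo i.castSucc) l}

/-- good positions of the other roots -/
def Cd : Set C6 := {q | ∀ l m, l < i.castSucc → i.succ < m → q l - q m ∈ Sl}

lemma isOpen_Gd : IsOpen (Gd i) := by
  have e : Gd i = ⋂ l ∈ oth i, {p : C6 × ℂ | p.1 i.castSucc + p.2 - p.1 l ∈ Sb (lo i.castSucc) l} := by
    ext p; simp [Gd]
  rw [e]
  refine isOpen_biInter_finset fun l _ => (H857.isOpen_Sb _ l).preimage ?_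
  fun_prop

lemma isOpen_Cd : IsOpen (Cd i) := by
  have e : Cd i = ⋂ l, ⋂ m, ⋂ (_ : l < i.castSucc), ⋂ (_ : i.succ < m),
      {q : C6 | q l - q m ∈ Sl} := by
    ext p; simp [Cd]
  rw [e]
  refine isOpen_iInter_of_finite fun l => isOpen_iInter_of_finite fun m =>
    isOpen_iInter_of_finite fun _ => isOpen_iInter_of_finite fun _ =>
      H908.isOpen_Sl.preimage ?_
  fun_prop

lemma castSucc_not_mem : i.castSucc ∉ lo i.castSucc := by simp [mem_lo]

lemma lt_succ' : i.castSucc < i.succ := Fin.castSucc_lt_succ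

lemma succ_not_mem : i.succ ∉ lo i.castSucc := by
  rw [mem_lo]
  exact not_lt.2 (lt_succ' i).le

variable {i}

lemma cases_not_lo {m : Fin 6} (hm : m ∉ lo i.castSucc) :
    m = i.castSucc ∨ m = i.succ ∨ i.succ < m := by
  rw [mem_lo, not_lt] at hm
  rcases hm.eq_or_lt with h | h
  · exact Or.inl h.symm
  · right
    have h2 : i.succ ≤ m := Fin.castSucc_lt_iff_succ_le.1 h
    rcases h2.eq_or_lt with h | h
    · exact Or.inl h.symm
    · exact Or.inr h

lemma mem_Cd_of_XD {q : C6} (hq : q ∈ XD i) : q ∈ Cd i := by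
  intro l m hl hm
  by_cases h : (q l).re = (q m).re
  · left
    have h1 := hq.2 l m (hl.trans ((lt_succ' i).trans hm)) (Or.inl hl.ne) h
    rw [sub_im]
    linarith
  · right
    rw [sub_re]
    exact sub_ne_zero.2 h

lemma mem_Gd_of_XD {q : C6} (hq : q ∈ XD i) : (q, (0 : ℂ)) ∈ Gd i := by
  intro l hl
  rw [mem_oth] at hl
  rw [add_zero, H857.mem_Sb_iff]
  intro h
  rw [sub_re, sub_eq_zero] at h
  rw [sub_im]
  constructor
  · intro hlo
    rw [mem_lo] at hlo
    have := hq.2 l i.castSucc hlo (Or.inl hl.2) h.symm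
    linarith
  · intro hlo
    rcases cases_not_lo hlo with h1 | h1 | h1
    · exact absurd h1 hl.2
    · exact absurd h1 hl.1
    · have h2 := hq.2 i.castSucc l ((lt_succ' i).trans h1) (Or.inr hl.1) h
      linarith

lemma sq_bb (d : ℂ) (q : C6) (z : ℂ) :
    sq (lo i.castSucc) (bb i (d, q)) (q i.castSucc + z) = sg d z * GG i q z := by
  unfold Vale.Agent.P273.H857.sq
  have h1 : i.succ ∈ Finset.univ.erase i.castSucc := by simp [succ_ne i]
  rw [← Finset.mul_prod_erase Finset.univ _ (Finset.mem_univ i.castSucc),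
    ← Finset.mul_prod_erase (Finset.univ.erase i.castSucc) _ h1]
  have e0 : br (lo i.castSucc) i.castSucc (q i.castSucc + z - bb i (d, q) i.castSucc) =
      rt (z + d) := by
    rw [bb_zero, br, if_neg (castSucc_not_mem i), rt_eq]
    congr 1
    ring
  have e1 : br (lo i.castSucc) i.succ (q i.castSucc + z - bb i (d, q) i.succ) =
      rt (z - d) := by
    rw [bb_one, br, if_neg (succ_not_mem i), rt_eq]
    congr 1
    ring
  have e2 : ∏ l ∈ (Finset.univ.erase i.castSucc).erase i.succ,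
      br (lo i.castSucc) l (q i.castSucc + z - bb i (d, q) l) = GG i q z := by
    unfold GG
    refine Finset.prod_congr rfl fun l hl => ?_
    have hl' : l ∈ oth i := hl
    rw [mem_oth] at hl'
    rw [bb_of_ne i hl'.2 hl'.1]
  rw [e0, e1, e2]
  unfold sg
  ring

lemma GG_ne_zero {p : C6 × ℂ} (hp : p ∈ Gd i) : GG i p.1 p.2 ≠ 0 := by
  unfold GG
  rw [Finset.prod_ne_zero_iff]
  exact fun l hl => H857.br_ne_zero (H857.Sb_ne_zero (hp l hl))

lemma differentiableOn_HH (k : ℕ) : DifferentiableOn ℂ (HH i k) (Gd i) := by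
  intro p hp
  have h1 : DifferentiableAt ℂ (fun p : C6 × ℂ => GG i p.1 p.2) p := by
    unfold GG
    refine (Finset.analyticAt_fun_prod _ fun l hl => ?_).differentiableAt
    have h2 : AnalyticAt ℂ (fun p : C6 × ℂ => p.1 i.castSucc + p.2 - p.1 l) p :=
      (((ContinuousLinearMap.proj i.castSucc).comp (ContinuousLinearMap.fst ℂ C6 ℂ) +
        ContinuousLinearMap.snd ℂ C6 ℂ) -
        (ContinuousLinearMap.proj l).comp (ContinuousLinearMap.fst ℂ C6 ℂ)).analyticAt _
    exact (H857.analyticAt_br (hp l hl)).comp_of_eq h2 rfl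
  have h3 : DifferentiableAt ℂ (fun p : C6 × ℂ => (p.1 i.castSucc + p.2) ^ k) p := by fun_prop
  exact (h3.mul (h1.inv (GG_ne_zero hp))).differentiableWithinAt

/-- the configuration is in the domain of the primitive: common part -/
lemma ok_fst {q : C6} {d : ℂ} (hq : q ∈ Cd i) (h1 : (q, -d) ∈ Gd i) (h2 : (q, d) ∈ Gd i) :
    ∀ l ∈ lo i.castSucc, ∀ m ∉ lo i.castSucc, (bb i (d, q) l).re = (bb i (d, q) m).re →
      (bb i (d, q) m).im < (bb i (d, q) l).im := by
  intro l hl m hm h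
  have hl0 : l ≠ i.castSucc := fun hc => by rw [hc] at hl; exact castSucc_not_mem i hl
  have hl1 : l ≠ i.succ := fun hc => by rw [hc] at hl; exact succ_not_mem i hl
  have hlo : l ∈ oth i := (mem_oth i).2 ⟨hl1, hl0⟩
  rw [bb_of_ne i hl0 hl1] at h ⊢
  rcases cases_not_lo hm with h0 | h0 | h0
  · subst h0
    rw [bb_zero] at h ⊢
    have h3 := h1 l hlo
    rw [H857.mem_Sb_iff] at h3
    have h4 := (h3 (by rw [sub_re, ← sub_eq_add_neg, ← h, sub_self])).1 hl
    rw [sub_im, ← sub_eq_add_neg] at h4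
    linarith
  · subst h0
    rw [bb_one] at h ⊢
    have h3 := h2 l hlo
    rw [H857.mem_Sb_iff] at h3
    have h4 := (h3 (by rw [sub_re, ← h, sub_self])).1 hl
    rw [sub_im] at h4
    linarith
  · have hm0 : m ≠ i.castSucc := ((lt_succ' i).trans h0).ne'
    have hm1 : m ≠ i.succ := h0.ne'
    rw [bb_of_ne i hm0 hm1] at h ⊢
    rcases hq l m (mem_lo.1 hl) h0 with h3 | h3
    · rw [sub_im] at h3; linarith
    · rw [sub_re] at h3; exact absurd (sub_eq_zero.2 h) h3

lemma ok_bb {q : C6} {d z : ℂ} (hq : q ∈ Cd i) (h1 : (q, -d) ∈ Gd i) (h2 : (q, d) ∈ Gd i)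
    (hz : (q, z) ∈ Gd i) (hzD : z ∈ Dom d) :
    (bb i (d, q), q i.castSucc + z) ∈ Om (lo i.castSucc) := by
  refine ⟨⟨fun l hl m hm h _ => ok_fst hq h1 h2 l hl m hm h, fun l hl h => ?_⟩, fun l hl => ?_⟩
  · by_cases h0 : l = i.castSucc
    · subst h0
      refine ⟨fun hc => absurd hc (castSucc_not_mem i), fun _ => ?_⟩
      have e : (z + d).re = 0 := by
        simp only [bb_zero, sub_re, add_re] at h ⊢
        linarith
      have h5 : 0 < (z + d).im := hzD.1.resolve_right (fun hc => hc e)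
      simp only [bb_zero, sub_im, add_im] at h5 ⊢
      linarith
    · by_cases h6 : l = i.succ
      · subst h6
        refine ⟨fun hc => absurd hc (succ_not_mem i), fun _ => ?_⟩
        have e : (z - d).re = 0 := by
          simp only [bb_one, sub_re, add_re] at h ⊢
          linarith
        have h5 : 0 < (z - d).im := hzD.2.resolve_right (fun hc => hc e)
        simp only [bb_one, sub_im, add_im] at h5 ⊢
        linarith
      · have h7 := hz l ((mem_oth i).2 ⟨h6, h0⟩)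
        rw [H857.mem_Sb_iff] at h7
        simp only [bb_of_ne i h0 h6, sub_re, add_re, sub_im, add_im] at h h7 ⊢
        have h8 := h7 (by linarith)
        exact ⟨fun hB => by linarith [h8.1 hB], fun hB => by linarith [h8.2 hB]⟩
  · simp only at hl
    by_cases h0 : l = i.castSucc
    · subst h0
      rw [bb_zero] at hl
      exact H908.Sl_ne_zero hzD.1 (by linear_combination -hl)
    · by_cases h6 : l = i.succ
      · subst h6
        rw [bb_one] at hl
        exact H908.Sl_ne_zero hzD.2 (by linear_combination -hl)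
      · rw [bb_of_ne i h0 h6] at hl
        have h7 := hz l ((mem_oth i).2 ⟨h6, h0⟩)
        exact H857.Sb_ne_zero h7 (by simp only; rw [hl]; ring)

/-- the domain at the root `i` -/
lemma ok_root0 {q : C6} {d : ℂ} (hq : q ∈ Cd i) (h1 : (q, -d) ∈ Gd i) (h2 : (q, d) ∈ Gd i)
    (hd : -d ∈ Sl) : OK (lo i.castSucc) (bb i (d, q)) (bb i (d, q) i.castSucc) ∧
      ∀ l, l ≠ i.castSucc → bb i (d, q) l ≠ bb i (d, q) i.castSucc := by
  have hd0 := H908.Sl_ne_zero hd
  refine ⟨⟨fun l hl m hm h _ => ok_fst hq h1 h2 l hl m hm h, fun l hl h => ?_⟩, fun l hl => ?_⟩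
  · by_cases h0 : l = i.castSucc
    · subst h0
      exact absurd rfl hl
    · by_cases h6 : l = i.succ
      · subst h6
        refine ⟨fun hc => absurd hc (succ_not_mem i), fun _ => ?_⟩
        have e : (-d).re = 0 := by
          simp only [bb_zero, bb_one, sub_re, add_re, neg_re] at h ⊢
          linarith
        have h5 : 0 < (-d).im := hd.resolve_right (fun hc => hc e)
        simp only [bb_zero, bb_one, sub_im, add_im, neg_im] at h5 ⊢
        linarith
      · have h7 := h1 l ((mem_oth i).2 ⟨h6, h0⟩)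
        rw [H857.mem_Sb_iff] at h7
        simp only [bb_zero, bb_of_ne i h0 h6, sub_re, add_re, sub_im, add_im, neg_re, neg_im]
          at h h7 ⊢
        have h8 := h7 (by linarith)
        exact ⟨fun hB => by linarith [h8.1 hB], fun hB => by linarith [h8.2 hB]⟩
  · by_cases h6 : l = i.succ
    · subst h6
      rw [bb_one, bb_zero]
      intro hc
      exact hd0 (by linear_combination (-1 / 2 : ℂ) * hc)
    · rw [bb_of_ne i hl h6, bb_zero]
      have h7 := h1 l ((mem_oth i).2 ⟨h6, hl⟩)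
      intro hc
      exact H857.Sb_ne_zero h7 (by simp only; rw [hc]; ring)

/-- the domain at the root `i + 1` -/
lemma ok_root1 {q : C6} {d : ℂ} (hq : q ∈ Cd i) (h1 : (q, -d) ∈ Gd i) (h2 : (q, d) ∈ Gd i)
    (hd : d ∈ Sl) : OK (lo i.castSucc) (bb i (d, q)) (bb i (d, q) i.succ) ∧
      ∀ l, l ≠ i.succ → bb i (d, q) l ≠ bb i (d, q) i.succ := by
  have hd0 := H908.Sl_ne_zero hd
  refine ⟨⟨fun l hl m hm h _ => ok_fst hq h1 h2 l hl m hm h, fun l hl h => ?_⟩, fun l hl => ?_⟩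
  · by_cases h0 : l = i.castSucc
    · subst h0
      refine ⟨fun hc => absurd hc (castSucc_not_mem i), fun _ => ?_⟩
      have e : d.re = 0 := by
        simp only [bb_zero, bb_one, sub_re, add_re] at h ⊢
        linarith
      have h5 : 0 < d.im := hd.resolve_right (fun hc => hc e)
      simp only [bb_zero, bb_one, sub_im, add_im] at h5 ⊢
      linarith
    · by_cases h6 : l = i.succ
      · subst h6
        exact absurd rfl hl
      · have h7 := h2 l ((mem_oth i).2 ⟨h6, h0⟩)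
        rw [H857.mem_Sb_iff] at h7
        simp only [bb_one, bb_of_ne i h0 h6, sub_re, add_re, sub_im, add_im] at h h7 ⊢
        have h8 := h7 (by linarith)
        exact ⟨fun hB => by linarith [h8.1 hB], fun hB => by linarith [h8.2 hB]⟩
  · by_cases h0 : l = i.castSucc
    · subst h0
      rw [bb_one, bb_zero]
      intro hc
      exact hd0 (by linear_combination (-1 / 2 : ℂ) * hc)
    · rw [bb_of_ne i h0 hl, bb_one]
      have h7 := h2 l ((mem_oth i).2 ⟨hl, h0⟩)
      intro hc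
      exact H857.Sb_ne_zero h7 (by simp only; rw [hc]; ring)

/-! ### the neck constant -/

/-- the base point -/
def z1 (ρ : ℝ) : ℂ := ⟨0, ρ / 2⟩

lemma norm_z1 {ρ : ℝ} (hρ : 0 < ρ) : ‖z1 ρ‖ = ρ / 2 := by
  have : z1 ρ = ((ρ / 2 : ℝ) : ℂ) * I := by
    apply Complex.ext <;> simp [z1]
  rw [this, norm_mul, norm_I, mul_one, norm_real, Real.norm_eq_abs, abs_of_pos (by linarith)]

lemma z1_add_mem {ρ : ℝ} (hρ : 0 < ρ) {d : ℂ} (hd : ‖d‖ < ρ / 2) : z1 ρ + d ∈ Sl := by
  refine mem_Sl_of_norm_lt ?_ (by rw [norm_z1 hρ]; exact hd)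
  show 0 ≤ ρ / 2
  linarith

lemma z1_mem {ρ : ℝ} (hρ : 0 < ρ) {d : ℂ} (hd : ‖d‖ < ρ / 2) : z1 ρ ∈ Dom d ∩ Sq ρ := by
  refine ⟨⟨z1_add_mem hρ hd, ?_⟩, ?_, ?_⟩
  · rw [sub_eq_add_neg]
    exact z1_add_mem hρ (by rw [norm_neg]; exact hd)
  · show |(0 : ℝ)| < ρ
    simpa using hρ
  · show |ρ / 2| < ρ
    rw [abs_of_pos (by linarith)]
    linarith

lemma XS_z1 {ρ : ℝ} (hρ : 0 < ρ) {d : ℂ} (hd : ‖d‖ < ρ / 2) : XS d (z1 ρ) = Xz (d ^ 2) (z1 ρ) := by
  have h := sg_eq_rz (z := z1 ρ) (ρ := ρ / 2) (norm_z1 hρ).ge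
    (fun d hd => z1_add_mem hρ (mem_ball_zero_iff.1 hd)) (d := d) (mem_ball_zero_iff.2 hd)
  unfold XS Xz
  rw [h]

/-- the constant of the neck -/
def kap (i : Fin 5) (k : ℕ) (ρ : ℝ) (p : ℂ × C6) : ℂ :=
  P k (lo i.castSucc) (bb i p) (p.2 i.castSucc + z1 ρ) -
    (lg (Xz (p.1 ^ 2) (z1 ρ)) * c0 (fun z => HH i k (p.2, z)) (5 * ρ) (p.1 ^ 2) +
      (P0 (fun z => HH i k (p.2, z)) (5 * ρ) (Xz (p.1 ^ 2) (z1 ρ)) (p.1 ^ 2) -
        P0 (fun z => HH i k (p.2, z)) (5 * ρ) (p.1 ^ 2 / Xz (p.1 ^ 2) (z1 ρ)) (p.1 ^ 2)))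

/-- admissible size of the neck over the open set `V` of configurations -/
structure NB (i : Fin 5) (V : Set C6) (ρ : ℝ) : Prop where
  op : IsOpen V
  pos : 0 < ρ
  cd : V ⊆ Cd i
  gd : V ×ˢ ball (0 : ℂ) (6 * ρ) ⊆ Gd i

theorem exists_NB {q : C6} (hq : q ∈ XD i) : ∃ V ρ, NB i V ρ ∧ q ∈ V := by
  have h1 : Gd i ∈ 𝓝 (q, (0 : ℂ)) := (isOpen_Gd i).mem_nhds (mem_Gd_of_XD hq)
  have h2 : Cd i ∈ 𝓝 q := (isOpen_Cd i).mem_nhds (mem_Cd_of_XD hq)
  rw [nhds_prod_eq] at h1
  obtain ⟨U, hU, W, hW, hUW⟩ := Filter.mem_prod_iff.1 h1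
  obtain ⟨r, hr, hrW⟩ := Metric.mem_nhds_iff.1 hW
  obtain ⟨V, hVU, hVo, hqV⟩ := _root_.mem_nhds_iff.1 (Filter.inter_mem hU h2)
  refine ⟨V, r / 6, ⟨hVo, by positivity, fun x hx => (hVU hx).2, ?_⟩, hqV⟩
  rintro ⟨x, z⟩ ⟨hx, hz⟩
  refine hUW ⟨(hVU hx).1, hrW ?_⟩
  have e : 6 * (r / 6) = r := by ring
  rw [e] at hz
  exact hz

namespace NB

variable {V : Set C6} {ρ : ℝ}

lemma dcc (h : NB i V ρ) (k : ℕ) {q : C6} (hq : q ∈ V) :
    DiffContOnCl ℂ (fun z => HH i k (q, z)) (ball 0 (5 * ρ)) := by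
  have hρ := h.pos
  have h1 : DifferentiableOn ℂ (HH i k) (V ×ˢ ball (0 : ℂ) (6 * ρ)) :=
    (differentiableOn_HH k).mono h.gd
  have h2 : DifferentiableOn ℂ (fun z : ℂ => HH i k (q, z)) (ball (0 : ℂ) (6 * ρ)) :=
    h1.comp ((differentiable_const q).prodMk differentiable_id).differentiableOn
      fun z hz => ⟨hq, hz⟩
  refine DifferentiableOn.diffContOnCl (h2.mono ?_)
  refine closure_ball_subset_closedBall.trans (closedBall_subset_ball ?_)
  linarith

lemma mem_gd (h : NB i V ρ) {q : C6} (hq : q ∈ V) {z : ℂ} (hz : ‖z‖ < 6 * ρ) : (q, z) ∈ Gd i :=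
  h.gd ⟨hq, mem_ball_zero_iff.2 hz⟩

lemma mem_om (h : NB i V ρ) {q : C6} (hq : q ∈ V) {d z : ℂ} (hd : ‖d‖ < ρ)
    (hz : z ∈ Dom d ∩ Sq ρ) : (bb i (d, q), q i.castSucc + z) ∈ Om (lo i.castSucc) := by
  have hρ := h.pos
  have hz2 := norm_lt_of_Sq hz.2
  exact ok_bb (h.cd hq) (h.mem_gd hq (by rw [norm_neg]; linarith)) (h.mem_gd hq (by linarith))
    (h.mem_gd hq (by linarith)) hz.1

/-- **the primitive in the neck** -/
theorem neck (h : NB i V ρ) (hP : PotHyp) {k : ℕ} (hk : k ≤ 1) {q : C6} (hq : q ∈ V) {d : ℂ}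
    (hd : ‖d‖ < ρ / 2) {z : ℂ} (hz : z ∈ Dom d ∩ Sq ρ) :
    P k (lo i.castSucc) (bb i (d, q)) (q i.castSucc + z) =
      kap i k ρ (d, q) + NN (fun z => HH i k (q, z)) (5 * ρ) d z := by
  have hρ := h.pos
  have hd' : ‖d‖ < ρ := by linarith
  have hQ : ∀ z ∈ Dom d ∩ Sq ρ, HasDerivAt
      (fun z => P k (lo i.castSucc) (bb i (d, q)) (q i.castSucc + z))
      ((sg d z)⁻¹ • HH i k (q, z)) z := by
    intro z hz
    have h1 := hP.der k hk _ _ _ (h.mem_om hq hd' hz)
    have h2 := HasDerivAt.comp_const_add (q i.castSucc) z h1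
    have e : (q i.castSucc + z) ^ k /
        H857.sq (lo i.castSucc) (bb i (d, q)) (q i.castSucc + z) =
        (sg d z)⁻¹ • HH i k (q, z) := by
      rw [sq_bb, smul_eq_mul]
      unfold HH
      rw [div_eq_mul_inv, mul_inv, div_eq_mul_inv]
      ring
    rw [e] at h2
    exact h2
  have key := neck_formula (h.dcc k hq) hd' hQ hz (z1_mem hρ hd)
  have e : kap i k ρ (d, q) = P k (lo i.castSucc) (bb i (d, q)) (q i.castSucc + z1 ρ) -
      NN (fun z => HH i k (q, z)) (5 * ρ) d (z1 ρ) := by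
    unfold kap NN
    rw [XS_z1 hρ hd]
    rfl
  rw [e, ← key]
  ring

/-- the constant is holomorphic, also at `d = 0` -/
theorem diff_kap (h : NB i V ρ) (hP : PotHyp) {k : ℕ} (hk : k ≤ 1) :
    DifferentiableOn ℂ (kap i k ρ) (ball 0 (ρ / 2) ×ˢ V) := by
  have hρ := h.pos
  have hHd : DifferentiableOn ℂ (HH i k) (V ×ˢ ball (0 : ℂ) (6 * ρ)) :=
    (differentiableOn_HH k).mono h.gd
  have h56 : 5 * ρ < 6 * ρ := by linarith
  rintro ⟨d, q⟩ ⟨hd, hq⟩
  rw [mem_ball_zero_iff] at hd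
  have hd' : ‖d‖ < ρ := by linarith
  have hz := z1_mem hρ hd
  have hε : ‖d ^ 2‖ < ‖z1 ρ‖ ^ 2 := by
    rw [norm_z1 hρ, norm_pow]
    exact pow_lt_pow_left₀ hd (norm_nonneg _) two_ne_zero
  have hε2 : ‖d ^ 2‖ < (5 * ρ) ^ 2 := by
    rw [norm_pow]
    exact pow_lt_pow_left₀ (by linarith) (norm_nonneg _) two_ne_zero
  have hX1 : ‖Xz (d ^ 2) (z1 ρ)‖ < 5 * ρ := by
    rw [← XS_z1 hρ hd]
    have := norm_XS_le d (z1 ρ)
    rw [norm_z1 hρ] at this
    linarith
  have hX2 : ‖d ^ 2 / Xz (d ^ 2) (z1 ρ)‖ < 5 * ρ := by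
    rw [← XS_z1 hρ hd, div_XS hz.1]
    have := norm_YS_le d (z1 ρ)
    rw [norm_z1 hρ] at this
    linarith
  have hXs : Xz (d ^ 2) (z1 ρ) ∈ Sl := by
    rw [← XS_z1 hρ hd]
    exact XS_mem hz.1
  have hX0 := H908.Sl_ne_zero hXs
  have fst1 : DifferentiableAt ℂ (fun p : ℂ × C6 => p.1 ^ 2) (d, q) := by fun_prop
  have dX : DifferentiableAt ℂ (fun p : ℂ × C6 => Xz (p.1 ^ 2) (z1 ρ)) (d, q) := by
    have h1 := differentiableAt_Xz hε
    have h2 : DifferentiableAt ℂ (fun p : ℂ × C6 => (p.1 ^ 2, z1 ρ)) (d, q) := by fun_prop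
    exact DifferentiableAt.comp (f := fun p : ℂ × C6 => (p.1 ^ 2, z1 ρ)) (d, q) h1 h2
  have dl : DifferentiableAt ℂ (fun p : ℂ × C6 => lg (Xz (p.1 ^ 2) (z1 ρ))) (d, q) :=
    DifferentiableAt.comp (f := fun p : ℂ × C6 => Xz (p.1 ^ 2) (z1 ρ)) (d, q)
      (hasDerivAt_lg hXs).differentiableAt dX
  have dY : DifferentiableAt ℂ (fun p : ℂ × C6 => p.1 ^ 2 / Xz (p.1 ^ 2) (z1 ρ)) (d, q) :=
    fst1.mul (dX.inv hX0)
  have dc : DifferentiableAt ℂ (fun p : ℂ × C6 =>
      c0 (fun z => HH i k (p.2, z)) (5 * ρ) (p.1 ^ 2)) (d, q) := by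
    have h1 := (differentiableOn_c0 h.op (by linarith) h56 hHd).differentiableAt
      ((isOpen_ball.prod h.op).mem_nhds (show ((d ^ 2, q) : ℂ × C6) ∈
        ball (0 : ℂ) ((5 * ρ) ^ 2) ×ˢ V from ⟨mem_ball_zero_iff.2 hε2, hq⟩))
    have h2 : DifferentiableAt ℂ (fun p : ℂ × C6 => (p.1 ^ 2, p.2)) (d, q) := by fun_prop
    exact DifferentiableAt.comp (f := fun p : ℂ × C6 => (p.1 ^ 2, p.2)) (d, q) h1 h2
  have dP : ∀ Y : ℂ × C6 → ℂ, DifferentiableAt ℂ Y (d, q) → ‖Y (d, q)‖ < 5 * ρ →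
      DifferentiableAt ℂ (fun p : ℂ × C6 =>
        P0 (fun z => HH i k (p.2, z)) (5 * ρ) (Y p) (p.1 ^ 2)) (d, q) := by
    intro Y hY hYn
    have h1 := (differentiableOn_P0 h.op h56 hHd).differentiableAt
      ((isOpen_ball.prod (isOpen_ball.prod h.op)).mem_nhds (show ((Y (d, q), d ^ 2, q) :
        ℂ × ℂ × C6) ∈ ball (0 : ℂ) (5 * ρ) ×ˢ ball (0 : ℂ) ((5 * ρ) ^ 2) ×ˢ V from
          ⟨mem_ball_zero_iff.2 hYn, mem_ball_zero_iff.2 hε2, hq⟩))
    have h2 : DifferentiableAt ℂ (fun p : ℂ × C6 => (Y p, p.1 ^ 2, p.2)) (d, q) :=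
      hY.prodMk (fst1.prodMk differentiableAt_snd)
    exact DifferentiableAt.comp (f := fun p : ℂ × C6 => (Y p, p.1 ^ 2, p.2)) (d, q) h1 h2
  have dQ : DifferentiableAt ℂ (fun p : ℂ × C6 =>
      P k (lo i.castSucc) (bb i p) (p.2 i.castSucc + z1 ρ)) (d, q) := by
    have hop : IsOpen (Om (lo i.castSucc)) := isOpen_Om _
    have h1 := (hP.hol k hk (lo i.castSucc)).differentiableAt (hop.mem_nhds (h.mem_om hq hd' hz))
    have h2 : DifferentiableAt ℂ (fun p : ℂ × C6 => (bb i p, p.2 i.castSucc + z1 ρ)) (d, q) := by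
      refine DifferentiableAt.prodMk ?_ (by fun_prop)
      refine differentiableAt_pi.2 fun l => ?_
      unfold bb pr
      by_cases h0 : l = i.castSucc
      · simp only [h0, if_true]
        fun_prop
      · by_cases h6 : l = i.succ
        · simp only [h0, h6, if_true, if_false, succ_ne i]
          fun_prop
        · simp only [h0, h6, if_false]
          fun_prop
    exact DifferentiableAt.comp (f := fun p : ℂ × C6 => (bb i p, p.2 i.castSucc + z1 ρ))
      (d, q) h1 h2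
  exact (dQ.sub ((dl.mul dc).add ((dP _ dX hX1).sub (dP _ dY hX2)))).differentiableWithinAt

end NB

end

end Vale.Agent.P273.H598
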