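import Vale.Agent.P273.H598.Node1

/-!
# P273, periods: one node, the half periods (helper598)
-/

open Set Metric Filter Complex
open scoped Topology Real

namespace Vale.Agent.P273.H598

open Vale.Agent.P273.H908 (rt Sl)
open Vale.Agent.P273.H857 (br Sb sq OK P lo piX C6)
open Vale.Agent.P273.H828 (pr XD)

noncomputable section

lemma Dom_neg (d : ℂ) : Dom (-d) = Dom d := by
  ext z
  simp only [Dom, Set.mem_ofPred_eq, ← sub_eq_add_neg, sub_neg_eq_add]
  exact and_comm

lemma NN_neg {F : Type*} [NormedAddCommGroup F] [NormedSpace ℂ F] (h : ℂ → F) (r : ℝ) (d : ℂ) :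
    NN h r (-d) = NN h r d := by
  funext z
  unfold NN
  rw [XS_neg, neg_sq]

variable {i : Fin 5}

lemma continuous_bb : Continuous fun p : ℂ × C6 => bb i p := by
  refine continuous_pi fun l => ?_
  unfold bb pr
  by_cases h0 : l = i.castSucc
  · simp only [h0, if_true]
    fun_prop
  · by_cases h6 : l = i.succ
    · simp only [h6, if_true, if_false, succ_ne i]
      fun_prop
    · simp only [h0, h6, if_false]
      fun_prop

lemma differentiable_bb : Differentiable ℂ fun p : ℂ × C6 => bb i p := by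
  refine differentiable_pi.2 fun l => ?_
  unfold bb pr
  by_cases h0 : l = i.castSucc
  · simp only [h0, if_true]
    fun_prop
  · by_cases h6 : l = i.succ
    · simp only [h6, if_true, if_false, succ_ne i]
      fun_prop
    · simp only [h0, h6, if_false]
      fun_prop

lemma lo_succ : lo i.succ = insert i.castSucc (lo i.castSucc) := by
  ext l
  rw [Finset.mem_insert, mem_lo, mem_lo, Fin.lt_def, Fin.lt_def, Fin.ext_iff, Fin.val_succ,
    Fin.val_castSucc]
  omega

lemma not_mem_of_succ {m : Fin 6} (hm : m ∉ lo i.succ) : m = i.succ ∨ i.succ < m := by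
  rw [mem_lo, not_lt] at hm
  rcases hm.eq_or_lt with h | h
  · exact Or.inl h.symm
  · exact Or.inr h

/-- the domain of the half period `i + 1` -/
lemma ok_root1' {q : C6} {d : ℂ} (hq : q ∈ Cd i) (h1 : (q, -d) ∈ Gd i) (h2 : (q, d) ∈ Gd i)
    (hd : -d ∈ Sl) : OK (lo i.succ) (bb i (d, q)) (bb i (d, q) i.succ) ∧
      ∀ l, l ≠ i.succ → bb i (d, q) l ≠ bb i (d, q) i.succ := by
  have hd0 := H908.Sl_ne_zero hd
  refine ⟨⟨fun l hl m hm h hx => ?_, fun l hl h => ?_⟩, fun l hl => ?_⟩
  · have hm' : m ∉ lo i.castSucc := fun hc => hm (by rw [lo_succ]; exact Finset.mem_insert_of_mem hc)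
    rw [lo_succ, Finset.mem_insert] at hl
    rcases hl with hl | hl
    · subst hl
      rcases not_mem_of_succ hm with h0 | h0
      · subst h0
        rw [h] at hx
        exact absurd hx (lt_irrefl _)
      · have hm0 : m ≠ i.castSucc := ((lt_succ' i).trans h0).ne'
        have hm1 : m ≠ i.succ := h0.ne'
        have h7 := h1 m ((mem_oth i).2 ⟨hm1, hm0⟩)
        rw [H857.mem_Sb_iff] at h7
        simp only [bb_zero, bb_of_ne i hm0 hm1, sub_re, add_re, sub_im, add_im, neg_re, neg_im]
          at h h7 ⊢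
        have h8 := (h7 (by linarith)).2 hm'
        linarith
    · exact ok_fst hq h1 h2 l hl m hm' h
  · by_cases h0 : l = i.castSucc
    · subst h0
      refine ⟨fun _ => ?_, fun hc => absurd (by rw [lo_succ]; exact Finset.mem_insert_self _ _) hc⟩
      have e : (-d).re = 0 := by
        simp only [bb_zero, bb_one, sub_re, add_re, neg_re] at h ⊢
        linarith
      have h5 : 0 < (-d).im := hd.resolve_right (fun hc => hc e)
      simp only [bb_zero, bb_one, sub_im, add_im, neg_im] at h5 ⊢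
      linarith
    · by_cases h6 : l = i.succ
      · subst h6
        exact absurd rfl hl
      · have h7 := h2 l ((mem_oth i).2 ⟨h6, h0⟩)
        rw [H857.mem_Sb_iff] at h7
        simp only [bb_one, bb_of_ne i h0 h6, sub_re, add_re, sub_im, add_im] at h h7 ⊢
        have h8 := h7 (by linarith)
        refine ⟨fun hB => ?_, fun hB => ?_⟩
        · rw [lo_succ, Finset.mem_insert] at hB
          have := h8.1 (hB.resolve_left h0)
          linarith
        · have := h8.2 (fun hc => hB (by rw [lo_succ]; exact Finset.mem_insert_of_mem hc))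
          linarith
  · by_cases h0 : l = i.castSucc
    · subst h0
      rw [bb_one, bb_zero]
      intro hc
      exact hd0 (by linear_combination (1 / 2 : ℂ) * hc)
    · rw [bb_of_ne i h0 hl, bb_one]
      have h7 := h2 l ((mem_oth i).2 ⟨hl, h0⟩)
      intro hc
      exact H857.Sb_ne_zero h7 (by simp only; rw [hc]; ring)

/-! ### the logarithm at `d` and `-d` -/

lemma lg_of_re_pos {d : ℂ} (hd : 0 < d.re) : lg d = lg (-d) - π * I := by
  have hd0 : d ≠ 0 := by rintro rfl; simp at hd
  have harg : |arg d| < π / 2 := Complex.abs_arg_lt_pi_div_two_iff.2 (Or.inl hd)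
  rw [abs_lt] at harg
  have e1 : log (-I * d) = -(π / 2) * I + log d := by
    have : log (-I * d) = log (-I) + log d := by
      rw [Complex.log_mul_eq_add_log_iff (by simp) hd0, arg_neg_I]
      constructor <;> linarith [Real.pi_pos]
    rw [this, log_neg_I]
  have e2 : log (-I * -d) = (π / 2) * I + log d := by
    have h0 : -I * -d = I * d := by ring
    have : log (I * d) = log I + log d := by
      rw [Complex.log_mul_eq_add_log_iff (by simp) hd0, arg_I]
      constructor <;> linarith [Real.pi_pos]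
    rw [h0, this, log_I]
  unfold lg
  rw [e1, e2]
  ring

lemma lg_of_re_neg {d : ℂ} (hd : d.re < 0) : 2 * lg (-d) - lg d = lg (-d) - π * I := by
  have h := lg_of_re_pos (d := -d) (by simpa using hd)
  rw [neg_neg] at h
  linear_combination h

/-! ### the domain of the half periods is open -/

lemma mem_OmX {j : Fin 6} {b : C6} : b ∈ OmX j ↔
    (∀ l, l ≠ j → b j - b l ∈ Sb (lo j) l) ∧
      ∀ l ∈ lo j, ∀ m ∉ lo j, m ≠ j → b l - b m ∈ Sl ∨ (b l).re < (b j).re := by
  constructor
  · rintro ⟨⟨h1, h2⟩, h3⟩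
    have h4 : ∀ l, l ≠ j → b j - b l ∈ Sb (lo j) l := by
      intro l hl
      rw [H857.mem_Sb_iff]
      intro h
      rw [sub_re] at h
      rw [sub_im]
      have h5 := h2 l (h3 l hl) (by linarith)
      exact ⟨fun hB => by linarith [h5.1 hB], fun hB => by linarith [h5.2 hB]⟩
    refine ⟨h4, fun l hl m hm hmj => ?_⟩
    have hlj : l ≠ j := by rintro rfl; rw [mem_lo] at hl; exact lt_irrefl _ hl
    by_cases e : (b l).re = (b m).re
    · rcases lt_trichotomy (b l).re (b j).re with h | h | h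
      · exact Or.inr h
      · left
        left
        have h5 := (h2 l (h3 l hlj) h).1 hl
        have h6 := (h2 m (h3 m hmj) (e.symm.trans h)).2 hm
        rw [sub_im]
        linarith
      · left
        left
        have := h1 l hl m hm e h
        rw [sub_im]
        linarith
    · left
      right
      rw [sub_re]
      exact sub_ne_zero.2 e
  · rintro ⟨h1, h2⟩
    refine ⟨⟨fun l hl m hm e hx => ?_, fun l hl e => ?_⟩, fun l hl hc => ?_⟩
    · by_cases hmj : m = j
      · subst hmj
        rw [e] at hx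
        exact absurd hx (lt_irrefl _)
      · rcases h2 l hl m hm hmj with (h | h) | h
        · rw [sub_im] at h
          linarith
        · rw [sub_re] at h
          exact absurd (sub_eq_zero.2 e) h
        · linarith
    · have hlj : l ≠ j := by rintro rfl; exact hl rfl
      have h3 := h1 l hlj
      rw [H857.mem_Sb_iff] at h3
      have h4 := h3 (by rw [sub_re, e, sub_self])
      rw [sub_im] at h4
      exact ⟨fun hB => by linarith [h4.1 hB], fun hB => by linarith [h4.2 hB]⟩
    · exact H857.Sb_ne_zero (h1 l hl) (by rw [hc, sub_self])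

lemma isOpen_OmX (j : Fin 6) : IsOpen (OmX j) := by
  have e : OmX j = (⋂ l, ⋂ (_ : l ≠ j), {b : C6 | b j - b l ∈ Sb (lo j) l}) ∩
      ⋂ l, ⋂ m, ⋂ (_ : l ∈ lo j), ⋂ (_ : m ∉ lo j), ⋂ (_ : m ≠ j),
        ({b : C6 | b l - b m ∈ Sl} ∪ {b : C6 | (b l).re < (b j).re}) := by
    ext b
    rw [mem_OmX]
    simp only [mem_inter_iff, mem_iInter, mem_union, Set.mem_ofPred_eq]
    exact and_congr_right fun _ => ⟨fun h l m hl hm hj => h l hl m hm hj,
      fun h l hl m hm hj => h l m hl hm hj⟩
  rw [e]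
  refine IsOpen.inter ?_ ?_
  · refine isOpen_iInter_of_finite fun l => isOpen_iInter_of_finite fun _ =>
      (H857.isOpen_Sb _ l).preimage ?_
    fun_prop
  · refine isOpen_iInter_of_finite fun l => isOpen_iInter_of_finite fun m =>
      isOpen_iInter_of_finite fun _ => isOpen_iInter_of_finite fun _ =>
        isOpen_iInter_of_finite fun _ => IsOpen.union ?_ ?_
    · refine H908.isOpen_Sl.preimage ?_
      fun_prop
    · exact isOpen_lt (by fun_prop) (by fun_prop)

/-- the merged configurations are in the domain of the other half periods -/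
lemma mem_OmX_of_XD {q : C6} (hq : q ∈ XD i) {j : Fin 6} (h0 : j ≠ i.castSucc) (h6 : j ≠ i.succ) :
    q ∈ OmX j := by
  rw [mem_OmX]
  have key : ∀ l m, l < m → (l = i.castSucc → m ≠ i.succ) → q l - q m ∈ Sl := by
    intro l m hlm hne
    by_cases h : (q l).re = (q m).re
    · left
      have h1 := hq.2 l m hlm (by
        by_cases h2 : l = i.castSucc
        · exact Or.inr (hne h2)
        · exact Or.inl h2) h
      rw [sub_im]
      linarith
    · right
      rw [sub_re]
      exact sub_ne_zero.2 h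
  refine ⟨fun l hl => ?_, fun l hl m hm hmj => Or.inl (key l m ?_ ?_)⟩
  · rw [H857.mem_Sb_iff]
    intro h
    refine ⟨fun hB => ?_, fun hB => ?_⟩
    · rw [mem_lo] at hB
      rcases key l j hB (fun _ => h6) with h2 | h2
      · rw [sub_im] at h2 ⊢
        linarith
      · exfalso
        apply h2
        rw [sub_re] at h ⊢
        linarith
    · rw [mem_lo, not_lt] at hB
      rcases key j l (lt_of_le_of_ne hB (Ne.symm hl)) (fun h => absurd h h0) with h2 | h2
      · exact h2
      · exact absurd h h2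
  · rw [mem_lo] at hl hm
    exact lt_of_lt_of_le hl (not_lt.1 hm)
  · intro h hc
    rw [mem_lo] at hl hm
    rw [h] at hl
    rw [hc, not_lt] at hm
    -- castSucc < j ≤ succ
    have h2 : i.succ ≤ j := Fin.castSucc_lt_iff_succ_le.1 hl
    exact h6 (le_antisymm hm h2)

/-- neighbourhoods on which the other half periods are holomorphic -/
structure NB2 (i : Fin 5) (V : Set C6) (ρ : ℝ) : Prop extends NB i V ρ where
  om : ∀ j, j ≠ i.castSucc → j ≠ i.succ → ∀ q ∈ V, ∀ d : ℂ, ‖d‖ < ρ → bb i (d, q) ∈ OmX j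

lemma bb_d_zero {q : C6} (hq : q i.castSucc = q i.succ) : bb i (0, q) = q := by
  funext l
  by_cases h0 : l = i.castSucc
  · subst h0
    rw [bb_zero, sub_zero]
  · by_cases h6 : l = i.succ
    · subst h6
      rw [bb_one, add_zero, hq]
    · rw [bb_of_ne i h0 h6]

theorem exists_NB2 {q : C6} (hq : q ∈ XD i) : ∃ V ρ, NB2 i V ρ ∧ q ∈ V := by
  obtain ⟨V, ρ, h, hqV⟩ := exists_NB hq
  have h1 : ∀ᶠ p : ℂ × C6 in 𝓝 (0, q), ∀ j, j ≠ i.castSucc → j ≠ i.succ → bb i p ∈ OmX j := by
    refine Filter.eventually_all.2 fun j => ?_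
    by_cases h0 : j = i.castSucc
    · exact Eventually.of_forall fun p hc => absurd h0 hc
    · by_cases h6 : j = i.succ
      · exact Eventually.of_forall fun p _ hc => absurd h6 hc
      · have h2 : Tendsto (fun p : ℂ × C6 => bb i p) (𝓝 (0, q)) (𝓝 q) := by
          have := (continuous_bb (i := i)).tendsto (0, q)
          rwa [bb_d_zero hq.1] at this
        filter_upwards [h2.eventually ((isOpen_OmX j).mem_nhds (mem_OmX_of_XD hq h0 h6))]
          with p hp _ _ using hp
  rw [nhds_prod_eq] at h1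
  obtain ⟨pa, ha, pb, hb, hab⟩ := Filter.eventually_prod_iff.1 h1
  obtain ⟨r, hr, hr2⟩ := Metric.eventually_nhds_iff.1 ha
  obtain ⟨W, hW1, hW2, hW3⟩ := _root_.eventually_nhds_iff.1 hb
  refine ⟨V ∩ W, min ρ r, ⟨⟨h.op.inter hW2, lt_min h.pos hr, fun x hx => h.cd hx.1, ?_⟩, ?_⟩,
    hqV, hW3⟩
  · rintro ⟨x, z⟩ ⟨hx, hz⟩
    refine h.gd ⟨hx.1, ?_⟩
    rw [mem_ball_zero_iff] at hz ⊢
    have := min_le_left ρ r
    linarith
  · intro j h0 h6 x hx d hd
    refine hab (hr2 ?_) (hW1 x hx.2) j h0 h6
    rw [dist_zero_right]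
    exact lt_of_lt_of_le hd (min_le_right _ _)

namespace NB

variable {V : Set C6} {ρ : ℝ}

/-- **the half period of the label `i`** -/
theorem piX_zero (h : NB i V ρ) (hP : PotHyp) {k : ℕ} (hk : k ≤ 1) {q : C6} (hq : q ∈ V) {d : ℂ}
    (hd : ‖d‖ < ρ / 2) (hdS : -d ∈ Sl) :
    piX k i.castSucc (bb i (d, q)) =
      kap i k ρ (d, q) + lg (-d) * c0 (fun z => HH i k (q, z)) (5 * ρ) (d ^ 2) := by
  have hρ := h.pos
  have hG : ∀ z : ℂ, ‖z‖ < ρ → (q, z) ∈ Gd i := fun z hz => h.mem_gd hq (by linarith)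
  have hok := ok_root0 (h.cd hq) (hG (-d) (by rw [norm_neg]; linarith)) (hG d (by linarith)) hdS
  have h1 := hP.root k hk (lo i.castSucc) (bb i (d, q)) i.castSucc (castSucc_not_mem i) hok.1 hok.2
  have hmap : Tendsto (fun z : ℂ => q i.castSucc + z) (𝓝[Dom d] (-d))
      (𝓝[{x | x - bb i (d, q) i.castSucc ∈ Sl}] (bb i (d, q) i.castSucc)) := by
    refine tendsto_nhdsWithin_iff.2 ⟨?_, ?_⟩
    · have : ContinuousAt (fun z : ℂ => q i.castSucc + z) (-d) := by fun_prop
      have h2 := this.tendsto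
      have e : q i.castSucc + -d = bb i (d, q) i.castSucc := by rw [bb_zero]; ring
      rw [e] at h2
      exact h2.mono_left nhdsWithin_le_nhds
    · filter_upwards [self_mem_nhdsWithin] with z hz
      show q i.castSucc + z - bb i (d, q) i.castSucc ∈ Sl
      have e : q i.castSucc + z - bb i (d, q) i.castSucc = z + d := by rw [bb_zero]; ring
      rw [e]
      exact hz.1
  have h2 := h1.comp hmap
  have hr : ContinuousOn (fun z => HH i k (q, z)) (sphere 0 (5 * ρ)) := by
    have h3 := (h.dcc k hq).continuousOn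
    rw [closure_ball _ (by positivity)] at h3
    exact h3.mono sphere_subset_closedBall
  have h3 := tendsto_NN_root hr hdS (by rw [norm_neg]; linarith)
  rw [NN_neg, Dom_neg, neg_sq] at h3
  have h4 : Tendsto (fun z => kap i k ρ (d, q) + NN (fun z => HH i k (q, z)) (5 * ρ) d z)
      (𝓝[Dom d] (-d)) (𝓝 (kap i k ρ (d, q) +
        lg (-d) • c0 (fun z => HH i k (q, z)) (5 * ρ) (d ^ 2))) := h3.const_add _
  have hSq : ∀ᶠ z in 𝓝[Dom d] (-d), z ∈ Sq ρ := by
    refine mem_nhdsWithin_of_mem_nhds ((isOpen_Sq ρ).mem_nhds ⟨?_, ?_⟩)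
    · have := abs_re_le_norm (-d)
      rw [norm_neg] at this
      linarith
    · have := abs_im_le_norm (-d)
      rw [norm_neg] at this
      linarith
  have h5 : Tendsto (fun z => P k (lo i.castSucc) (bb i (d, q)) (q i.castSucc + z))
      (𝓝[Dom d] (-d)) (𝓝 (kap i k ρ (d, q) +
        lg (-d) • c0 (fun z => HH i k (q, z)) (5 * ρ) (d ^ 2))) := by
    refine h4.congr' ?_
    filter_upwards [hSq, self_mem_nhdsWithin] with z hz1 hz2
    exact (h.neck hP hk hq hd ⟨hz2, hz1⟩).symm
  have : (𝓝[Dom d] (-d)).NeBot := by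
    have := nhdsWithin_Dom_neBot hdS
    rwa [Dom_neg] at this
  exact tendsto_nhds_unique h2 h5

/-- the value of the same primitive at the root `i + 1` -/
theorem P_one (h : NB i V ρ) (hP : PotHyp) {k : ℕ} (hk : k ≤ 1) {q : C6} (hq : q ∈ V) {d : ℂ}
    (hd : ‖d‖ < ρ / 2) (hdS : d ∈ Sl) :
    P k (lo i.castSucc) (bb i (d, q)) (bb i (d, q) i.succ) =
      kap i k ρ (d, q) + lg d * c0 (fun z => HH i k (q, z)) (5 * ρ) (d ^ 2) := by
  have hρ := h.pos
  have hG : ∀ z : ℂ, ‖z‖ < ρ → (q, z) ∈ Gd i := fun z hz => h.mem_gd hq (by linarith)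
  have hok := ok_root1 (h.cd hq) (hG (-d) (by rw [norm_neg]; linarith)) (hG d (by linarith)) hdS
  have h1 := hP.root k hk (lo i.castSucc) (bb i (d, q)) i.succ (succ_not_mem i) hok.1 hok.2
  have hmap : Tendsto (fun z : ℂ => q i.castSucc + z) (𝓝[Dom d] d)
      (𝓝[{x | x - bb i (d, q) i.succ ∈ Sl}] (bb i (d, q) i.succ)) := by
    refine tendsto_nhdsWithin_iff.2 ⟨?_, ?_⟩
    · have : ContinuousAt (fun z : ℂ => q i.castSucc + z) d := by fun_prop
      have h2 := this.tendsto
      rw [← bb_one] at h2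
      exact h2.mono_left nhdsWithin_le_nhds
    · filter_upwards [self_mem_nhdsWithin] with z hz
      show q i.castSucc + z - bb i (d, q) i.succ ∈ Sl
      have e : q i.castSucc + z - bb i (d, q) i.succ = z - d := by rw [bb_one]; ring
      rw [e]
      exact hz.2
  have h2 := h1.comp hmap
  have hr : ContinuousOn (fun z => HH i k (q, z)) (sphere 0 (5 * ρ)) := by
    have h3 := (h.dcc k hq).continuousOn
    rw [closure_ball _ (by positivity)] at h3
    exact h3.mono sphere_subset_closedBall
  have h3 := tendsto_NN_root hr hdS (by linarith)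
  have h4 : Tendsto (fun z => kap i k ρ (d, q) + NN (fun z => HH i k (q, z)) (5 * ρ) d z)
      (𝓝[Dom d] d) (𝓝 (kap i k ρ (d, q) +
        lg d • c0 (fun z => HH i k (q, z)) (5 * ρ) (d ^ 2))) := h3.const_add _
  have hSq : ∀ᶠ z in 𝓝[Dom d] d, z ∈ Sq ρ := by
    refine mem_nhdsWithin_of_mem_nhds ((isOpen_Sq ρ).mem_nhds ⟨?_, ?_⟩)
    · have := abs_re_le_norm d
      linarith
    · have := abs_im_le_norm d
      linarith
  have h5 : Tendsto (fun z => P k (lo i.castSucc) (bb i (d, q)) (q i.castSucc + z))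
      (𝓝[Dom d] d) (𝓝 (kap i k ρ (d, q) +
        lg d • c0 (fun z => HH i k (q, z)) (5 * ρ) (d ^ 2))) := by
    refine h4.congr' ?_
    filter_upwards [hSq, self_mem_nhdsWithin] with z hz1 hz2
    exact (h.neck hP hk hq hd ⟨hz2, hz1⟩).symm
  have : (𝓝[Dom d] d).NeBot := nhdsWithin_Dom_neBot hdS
  exact tendsto_nhds_unique h2 h5

/-- **the half period of the label `i + 1`** -/
theorem piX_one (h : NB i V ρ) (hP : PotHyp) {k : ℕ} (hk : k ≤ 1) {q : C6} (hq : q ∈ V) {d : ℂ}
    (hd : ‖d‖ < ρ / 2) (hdS : -d ∈ Sl) :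
    piX k i.succ (bb i (d, q)) = kap i k ρ (d, q) +
      (lg (-d) - π * I) * c0 (fun z => HH i k (q, z)) (5 * ρ) (d ^ 2) := by
  have hρ := h.pos
  have hG : ∀ z : ℂ, ‖z‖ < ρ → (q, z) ∈ Gd i := fun z hz => h.mem_gd hq (by linarith)
  -- the case of different real parts
  have gen : ∀ d : ℂ, ‖d‖ < ρ / 2 → d.re ≠ 0 → piX k i.succ (bb i (d, q)) = kap i k ρ (d, q) +
      (lg (-d) - π * I) * c0 (fun z => HH i k (q, z)) (5 * ρ) (d ^ 2) := by
    intro d hd hre
    have hdS : -d ∈ Sl := Or.inr (by rw [neg_re]; exact neg_ne_zero.2 hre)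
    have hdS' : d ∈ Sl := Or.inr hre
    have g1 := hG (-d) (by rw [norm_neg]; linarith)
    have g2 := hG d (by linarith)
    have k1 := (ok_root1 (h.cd hq) g1 g2 hdS').1
    have hsr : ∀ l l', bb i (d, q) l = bb i (d, q) i.succ →
        bb i (d, q) l' = bb i (d, q) i.succ → l = l' := by
      have k3 := (ok_root1 (h.cd hq) g1 g2 hdS').2
      intro l l' e1 e2
      have e3 : l = i.succ := by_contra fun hc => k3 l hc e1
      have e4 : l' = i.succ := by_contra fun hc => k3 l' hc e2
      rw [e3, e4]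
    have k2 := (ok_root1' (h.cd hq) g1 g2 hdS).1
    have a1 := h.P_one hP hk hq hd hdS'
    unfold piX
    rw [lo_succ] at k2 ⊢
    rcases lt_or_gt_of_ne hre with hneg | hpos
    · have hx : (bb i (d, q) i.succ).re < (bb i (d, q) i.castSucc).re := by
        rw [bb_one, bb_zero, add_re, sub_re]
        linarith
      have h3 := hP.flipL k hk (lo i.castSucc) i.castSucc (bb i (d, q)) (bb i (d, q) i.succ)
        hsr (castSucc_not_mem i) k1 k2 hx
      have h4 := h.piX_zero hP hk hq hd hdS
      unfold piX at h4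
      rw [a1, h4] at h3
      have h5 := lg_of_re_neg hneg
      linear_combination h3 + c0 (fun z => HH i k (q, z)) (5 * ρ) (d ^ 2) * h5
    · have hx : (bb i (d, q) i.castSucc).re < (bb i (d, q) i.succ).re := by
        rw [bb_one, bb_zero, add_re, sub_re]
        linarith
      rw [hP.flipR k hk (lo i.castSucc) i.castSucc (bb i (d, q)) (bb i (d, q) i.succ)
        hsr (castSucc_not_mem i) k1 k2 hx, a1, lg_of_re_pos hpos]
  by_cases hre : d.re = 0
  · have hmem : (d, q) ∈ ball (0 : ℂ) (ρ / 2) ×ˢ V := ⟨mem_ball_zero_iff.2 hd, hq⟩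
    have hl : Tendsto (fun t : ℝ => d + t) (𝓝[>] 0) (𝓝 d) := by
      have : ContinuousAt (fun t : ℝ => d + t) 0 := by fun_prop
      have h2 := this.tendsto
      simp only [ofReal_zero, add_zero] at h2
      exact h2.mono_left nhdsWithin_le_nhds
    have c1 : ContinuousAt (fun d : ℂ => piX k i.succ (bb i (d, q))) d := by
      have g1 := hG (-d) (by rw [norm_neg]; linarith)
      have g2 := hG d (by linarith)
      have k2 := ok_root1' (h.cd hq) g1 g2 hdS
      have h3 := (hP.holX k hk i.succ).differentiableAt ((isOpen_OmX i.succ).mem_nhds k2)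
      have h4 : ContinuousAt (fun d : ℂ => bb i (d, q)) d :=
        (continuous_bb.comp (by fun_prop : Continuous fun d : ℂ => (d, q))).continuousAt
      exact ContinuousAt.comp (f := fun d : ℂ => bb i (d, q)) h3.continuousAt h4
    have c2 : ContinuousAt (fun d : ℂ => kap i k ρ (d, q)) d := by
      have h3 := (h.diff_kap hP hk).differentiableAt ((isOpen_ball.prod h.op).mem_nhds hmem)
      have h4 : ContinuousAt (fun d : ℂ => (d, q)) d := by fun_prop
      exact ContinuousAt.comp (f := fun d : ℂ => (d, q)) h3.continuousAt h4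
    have c3 : ContinuousAt (fun d : ℂ => lg (-d)) d :=
      ContinuousAt.comp (f := fun d : ℂ => -d) (continuousAt_lg hdS) (by fun_prop)
    have hHd : DifferentiableOn ℂ (HH i k) (V ×ˢ ball (0 : ℂ) (6 * ρ)) :=
      (differentiableOn_HH k).mono h.gd
    have hε2 : ‖d ^ 2‖ < (5 * ρ) ^ 2 := by
      rw [norm_pow]
      exact pow_lt_pow_left₀ (by linarith) (norm_nonneg _) two_ne_zero
    have c4 : ContinuousAt (fun d : ℂ => c0 (fun z => HH i k (q, z)) (5 * ρ) (d ^ 2)) d := by
      have h1 := (differentiableOn_c0 h.op (by linarith) (by linarith : 5 * ρ < 6 * ρ)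
        hHd).differentiableAt ((isOpen_ball.prod h.op).mem_nhds (show ((d ^ 2, q) : ℂ × C6) ∈
          ball (0 : ℂ) ((5 * ρ) ^ 2) ×ˢ V from ⟨mem_ball_zero_iff.2 hε2, hq⟩))
      have h2 : ContinuousAt (fun d : ℂ => (d ^ 2, q)) d := by fun_prop
      exact ContinuousAt.comp (f := fun d : ℂ => (d ^ 2, q)) h1.continuousAt h2
    have t1 := c1.tendsto.comp hl
    have c5 : ContinuousAt (fun d : ℂ => kap i k ρ (d, q) +
        (lg (-d) - π * I) * c0 (fun z => HH i k (q, z)) (5 * ρ) (d ^ 2)) d :=
      c2.add ((c3.sub continuousAt_const).mul c4)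
    have t2 := c5.tendsto.comp hl
    have hev : ∀ᶠ t : ℝ in 𝓝[>] 0, ‖d + t‖ < ρ / 2 := by
      have := hl.eventually ((isOpen_ball (x := (0 : ℂ)) (ε := ρ / 2)).mem_nhds
        (mem_ball_zero_iff.2 hd))
      filter_upwards [this] with t ht using mem_ball_zero_iff.1 ht
    refine tendsto_nhds_unique t1 (t2.congr' ?_)
    filter_upwards [hev, self_mem_nhdsWithin] with t ht1 ht2
    have ht0 : (0 : ℝ) < t := ht2
    exact (gen (d + t) ht1 (by rw [add_re, hre, ofReal_re, zero_add]; exact ht0.ne')).symm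
  · exact gen d hd hre

/-- the other half periods -/
theorem diff_piX (h : NB2 i V ρ) (hP : PotHyp) {k : ℕ} (hk : k ≤ 1) {j : Fin 6}
    (h0 : j ≠ i.castSucc) (h6 : j ≠ i.succ) :
    DifferentiableOn ℂ (fun p : ℂ × C6 => piX k j (bb i p)) (ball 0 ρ ×ˢ V) := by
  refine (hP.holX k hk j).comp differentiable_bb.differentiableOn ?_
  rintro ⟨d, q⟩ ⟨hd, hq⟩
  exact h.om j h0 h6 q hq d (mem_ball_zero_iff.1 hd)

end NB

end

end Vale.Agent.P273.H598
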